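import Vale.Agent.P104.TrB

/-! Working definitions for P070 (Naimark). -/

namespace Vale.Agent.P070

open scoped InnerProductSpace ComplexOrder ComplexConjugate
open Vale.Agent.P104 Filter Topology

section
variable {A B : Type*} [CStarAlgebra A] [CStarAlgebra B]

/-- Faithful tracial state `t`, and a subring `D` closed under comparison of projections,
halving, and spectral cuts. -/
structure Cl (t : Tr B) (D : Set B) : Prop where
  one : (1 : B) ∈ D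
  sub : ∀ x ∈ D, ∀ y ∈ D, x - y ∈ D
  mul : ∀ x ∈ D, ∀ y ∈ D, x * y ∈ D
  st : ∀ x ∈ D, star x ∈ D
  tone : t.τ 1 = 1
  faith : ∀ x, t.N x = 0 → x = 0
  le : ∀ x, t.N x ≤ ‖x‖ ^ 2
  cmp : ∀ p ∈ D, ∀ q ∈ D, IsStarProjection p → IsStarProjection q →
    (t.τ p).re ≤ (t.τ q).re → ∃ v ∈ D, star v * v = p ∧ q * v = v
  half : ∀ p ∈ D, IsStarProjection p →
    ∃ v ∈ D, v * v = 0 ∧ v * star v * v = v ∧ star v * v + v * star v = p
  sp : ∀ g ∈ D, ∀ l₁ ∈ D, ∀ l₂ ∈ D, ∀ n : ℕ, IsStarProjection g → ∃ g' ∈ D, ∃ c ∈ D,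
    IsStarProjection g' ∧ g * g' = g' ∧ ‖l₁ * g'‖ ^ 2 ≤ 1 / ((n : ℝ) + 1) ∧
      ‖l₂ * g'‖ ^ 2 ≤ 1 / ((n : ℝ) + 1) ∧
      g * (star l₁ * l₁ + star l₂ * l₂) * g - (1 / ((n : ℂ) + 1)) • (g - g') = star c * c

/-- The unitary group is complete for the trace norm. -/
def Cpl (t : Tr A) : Prop :=
  ∀ u : ℕ → A, (∀ n, u n ∈ unitary A) →
    (∀ ε : ℝ, 0 < ε → ∃ N, ∀ m ≥ N, ∀ n ≥ N, t.N (u m - u n) ≤ ε) →
    ∃ v ∈ unitary A, Tendsto (fun n => t.N (u n - v)) atTop (𝓝 0)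

/-- Decreasing sequences of nonzero projections in `D`. -/
structure Dec (D : Set B) (f : ℕ → B) : Prop where
  mem : ∀ k, f k ∈ D
  proj : ∀ k, IsStarProjection (f k)
  ne : ∀ k, f k ≠ 0
  dec : ∀ j k, j ≤ k → f j * f k = f k

/-- Excising sequences. -/
structure Exc (D : Set B) (f : ℕ → B) : Prop extends Dec D f where
  exc : ∀ (b : B) (ε : ℝ), 0 < ε → ∃ (c : ℂ) (k : ℕ), ‖f k * b * f k - c • f k‖ ≤ ε

/-- Asymptotically disjoint sequences. -/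
def Orth (f g : ℕ → B) : Prop := ∀ (b : B) (ε : ℝ), 0 < ε → ∃ k, ‖f k * b * g k‖ ≤ ε

/-- The unitary `w` moves `e` to `f` and lies in `B` away from them. -/
structure Link (ι : B →⋆ₐ[ℂ] A) (e f : ℕ → B) (w : A) : Prop where
  unit : w ∈ unitary A
  left : ∀ n, ∃ b, w * (1 - ι (e n)) = ι b
  right : ∀ m, ∃ b, star w * (1 - ι (f m)) = ι b
  fwd : ∀ m, ∃ n, ι (f m) * w * ι (e n) = w * ι (e n)
  bwd : ∀ n, ∃ m, ι (e n) * star w * ι (f m) = star w * ι (f m)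

/-- The data of the construction: a maximal disjoint family `I` of excising sequences of `B`,
a base point `e`, and `A` generated by `B` and unitaries linking `e` to the members of `I`. -/
structure Data (ι : B →⋆ₐ[ℂ] A) (D : Set B) (I : Set (ℕ → B)) (e : ℕ → B)
    (w : (ℕ → B) → A) : Prop where
  exc : ∀ f ∈ I, Exc D f
  orth : ∀ f ∈ I, ∀ g ∈ I, f ≠ g → Orth f g
  max : ∀ f, Exc D f → f ∉ I → ∃ g ∈ I, ¬ Orth g f
  base : e ∈ I
  we : w e = 1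
  link : ∀ f ∈ I, Link ι e f (w f)
  gen : ∀ C : StarSubalgebra ℂ A, IsClosed (C : Set A) → (∀ b, ι b ∈ C) →
    (∀ f ∈ I, w f ∈ C) → ∀ a, a ∈ C

end

/-- No nontrivial closed invariant subspace. -/
def Irr {A H : Type*} [NormedAddCommGroup H] [InnerProductSpace ℂ H] (π : A → H →L[ℂ] H) : Prop :=
  ∀ K : Submodule ℂ H, IsClosed (K : Set H) → (∀ a, ∀ x ∈ K, π a x ∈ K) → K = ⊥ ∨ K = ⊤

end Vale.Agent.P070
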