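import Vale.Agent.P070.Defs

/-! Part C1 of P070: the base sequence excises the whole algebra. -/

namespace Vale.Agent.P070

open scoped InnerProductSpace ComplexOrder ComplexConjugate
open Vale.Agent.P104 Filter Topology

variable {A B : Type*} [CStarAlgebra A] [CStarAlgebra B]

namespace C1

lemma norm_le {p : A} (hp : IsStarProjection p) : ‖p‖ ≤ 1 := hp.norm_le

lemma mul3 {x y z : A} {ε : ℝ} (hx : ‖x‖ ≤ 1) (hy : ‖y‖ ≤ ε) (hz : ‖z‖ ≤ 1) : ‖x * y * z‖ ≤ ε := by
  have h1 := norm_mul_le (x * y) z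
  have h2 := norm_mul_le x y
  have h3 := mul_le_of_le_one_right (norm_nonneg (x * y)) hz
  have h4 := mul_le_of_le_one_left (norm_nonneg y) hx
  linarith

lemma unit_le {u : A} (hu : u ∈ unitary A) : ‖u‖ ≤ 1 := by
  have h1 : ‖u‖ * ‖u‖ = ‖(1 : A)‖ := by
    rw [← CStarRing.norm_star_mul_self, Unitary.star_mul_self_of_mem hu]
  have h2 : ‖(1 : A)‖ ≤ 1 := norm_le (IsStarProjection.one A)
  nlinarith [norm_nonneg u]

/-- Elements approximated by members of `Y` on the right of the sequence `E`. -/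
def V (E : ℕ → A) (hE : ∀ n, ‖E n‖ ≤ 1) (hd : ∀ j k, j ≤ k → E j * E k = E k)
    (Y : Submodule ℂ A) : Submodule ℂ A where
  carrier := {z | ∀ ε : ℝ, 0 < ε → ∃ y ∈ Y, ∃ n, ∀ m ≥ n, ‖(z - y) * E m‖ ≤ ε}
  zero_mem' ε hε := ⟨0, zero_mem _, 0, fun m _ => by simpa using hε.le⟩
  add_mem' {x z} hx hz ε hε := by
    obtain ⟨y, hy, n, h1⟩ := hx (ε / 2) (by positivity)
    obtain ⟨y', hy', n', h2⟩ := hz (ε / 2) (by positivity)
    refine ⟨y + y', add_mem hy hy', max n n', fun m hm => ?_⟩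
    rw [add_sub_add_comm, add_mul]
    have := h1 m (le_of_max_le_left hm)
    have := h2 m (le_of_max_le_right hm)
    linarith [norm_add_le ((x - y) * E m) ((z - y') * E m)]
  smul_mem' c x hx ε hε := by
    obtain ⟨y, hy, n, h1⟩ := hx (ε / (‖c‖ + 1)) (by positivity)
    refine ⟨c • y, Y.smul_mem c hy, n, fun m hm => ?_⟩
    rw [← smul_sub, smul_mul_assoc, norm_smul]
    have := (le_div_iff₀ (by positivity)).1 (h1 m hm)
    nlinarith [norm_nonneg ((x - y) * E m)]

variable {E : ℕ → A} {hE : ∀ n, ‖E n‖ ≤ 1} {hd : ∀ j k, j ≤ k → E j * E k = E k}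
  {Y : Submodule ℂ A}

lemma mem_of {z : A} (h : ∀ ε : ℝ, 0 < ε → ∃ y ∈ V E hE hd Y, ∃ n, ‖(z - y) * E n‖ ≤ ε) :
    z ∈ V E hE hd Y := fun ε hε => by
  obtain ⟨v, hv, n, h1⟩ := h (ε / 2) (by positivity)
  obtain ⟨y, hy, n', h2⟩ := hv (ε / 2) (by positivity)
  refine ⟨y, hy, max n n', fun m hm => ?_⟩
  have e : (z - y) * E m = (z - v) * E n * E m + (v - y) * E m := by
    rw [mul_assoc, hd n m (le_of_max_le_left hm), ← add_mul, sub_add_sub_cancel]
  have a1 := norm_mul_le ((z - v) * E n) (E m)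
  have a2 := mul_le_of_le_one_right (norm_nonneg ((z - v) * E n)) (hE m)
  have := h2 m (le_of_max_le_right hm)
  rw [e]
  linarith [norm_add_le ((z - v) * E n * E m) ((v - y) * E m)]

lemma le_V {y : A} (hy : y ∈ Y) : y ∈ V E hE hd Y := fun ε hε =>
  ⟨y, hy, 0, fun m _ => by simpa using hε.le⟩

lemma mul_mem {a : A} (ha : ∀ y ∈ Y, a * y ∈ V E hE hd Y) {z : A} (hz : z ∈ V E hE hd Y) :
    a * z ∈ V E hE hd Y := mem_of fun ε hε => by
  obtain ⟨y, hy, n, h1⟩ := hz (ε / (‖a‖ + 1)) (by positivity)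
  refine ⟨a * y, ha y hy, n, ?_⟩
  rw [← mul_sub, mul_assoc]
  have := (le_div_iff₀ (by positivity)).1 (h1 n le_rfl)
  nlinarith [norm_nonneg ((z - y) * E n), norm_mul_le a ((z - y) * E n)]

lemma closed (z : A) : IsClosed {a | a * z ∈ V E hE hd Y} := by
  refine isClosed_of_closure_subset fun a ha => mem_of (hE := hE) (hd := hd) fun ε hε => ?_
  obtain ⟨b, hb, h1⟩ := Metric.mem_closure_iff.1 ha (ε / (‖z‖ + 1)) (by positivity)
  refine ⟨b * z, hb, 0, ?_⟩
  rw [dist_eq_norm] at h1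
  have := (lt_div_iff₀ (by positivity)).1 h1
  have a1 := norm_mul_le ((a - b) * z) (E 0)
  have a2 := mul_le_of_le_one_right (norm_nonneg ((a - b) * z)) (hE 0)
  rw [← sub_mul]
  nlinarith [norm_nonneg (a - b), norm_mul_le (a - b) z]

/-- Elements which preserve a submodule together with their adjoints. -/
def C (W : Submodule ℂ A) : StarSubalgebra ℂ A where
  carrier := {a | (∀ z ∈ W, a * z ∈ W) ∧ ∀ z ∈ W, star a * z ∈ W}
  mul_mem' {a b} ha hb := ⟨fun z hz => by rw [mul_assoc]; exact ha.1 _ (hb.1 z hz),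
    fun z hz => by rw [star_mul, mul_assoc]; exact hb.2 _ (ha.2 z hz)⟩
  add_mem' {a b} ha hb := ⟨fun z hz => by rw [add_mul]; exact add_mem (ha.1 z hz) (hb.1 z hz),
    fun z hz => by rw [star_add, add_mul]; exact add_mem (ha.2 z hz) (hb.2 z hz)⟩
  algebraMap_mem' c := ⟨fun z hz => by rw [← Algebra.smul_def]; exact W.smul_mem c hz,
    fun z hz => by rw [← algebraMap_star_comm, ← Algebra.smul_def]; exact W.smul_mem _ hz⟩
  star_mem' {a} ha := ⟨ha.2, by rw [star_star]; exact ha.1⟩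

lemma closed_C : IsClosed (C (V E hE hd Y) : Set A) := by
  have e : (C (V E hE hd Y) : Set A) = (⋂ z ∈ V E hE hd Y, {a | a * z ∈ V E hE hd Y}) ∩
      star ⁻¹' ⋂ z ∈ V E hE hd Y, {a | a * z ∈ V E hE hd Y} := by
    ext a
    simp only [Set.mem_inter_iff, Set.mem_preimage, Set.mem_iInter, Set.mem_ofPred_eq]
    rfl
  have h : IsClosed (⋂ z ∈ V E hE hd Y, {a | a * z ∈ V E hE hd Y}) :=
    isClosed_biInter fun z _ => closed z
  rw [e]
  exact h.inter (h.preimage continuous_star)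

variable {ι : B →⋆ₐ[ℂ] A} {D : Set B} {I : Set (ℕ → B)} {e : ℕ → B} {w : (ℕ → B) → A}

lemma pair (h : Data ι D I e w) {s f : ℕ → B} (hs : s ∈ I) (hf : f ∈ I) (b : B) {ε : ℝ}
    (hε : 0 < ε) : ∃ (c : ℂ) (k : ℕ), ‖ι (s k) * ι b * ι (f k) - c • ι (f k)‖ ≤ ε ∧
      (c = 0 ∨ f = s) := by
  have key : ∀ (c : ℂ) (k : ℕ), ‖s k * b * f k - c • f k‖ ≤ ε →
      ‖ι (s k) * ι b * ι (f k) - c • ι (f k)‖ ≤ ε := fun c k h => by
    rw [← map_mul, ← map_mul, ← map_smul, ← map_sub]
    exact (NonUnitalStarAlgHom.norm_apply_le ι _).trans h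
  by_cases hsf : s = f
  · subst hsf
    obtain ⟨c, k, hk⟩ := (h.exc s hs).exc b ε hε
    exact ⟨c, k, key c k hk, Or.inr rfl⟩
  · obtain ⟨k, hk⟩ := h.orth s hs f hf hsf b ε hε
    exact ⟨0, k, key 0 k (by simpa using hk), Or.inl rfl⟩

lemma act (h : Data ι D I e w) {hE : ∀ n, ‖ι (e n)‖ ≤ 1}
    {hd : ∀ j k, j ≤ k → ι (e j) * ι (e k) = ι (e k)}
    (hY : Y = Submodule.span ℂ {x | ∃ b, ∃ f ∈ I, x = ι b * w f}) {u : A} (hu : ‖u‖ ≤ 1)
    {s : ℕ → B} (hs : s ∈ I) (h1 : ∀ k, ∃ b, u * (1 - ι (s k)) = ι b) (h2 : u * w s ∈ Y) {z : A}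
    (hz : z ∈ V (fun n => ι (e n)) hE hd Y) : u * z ∈ V (fun n => ι (e n)) hE hd Y := by
  refine mul_mem (fun y hy => ?_) hz
  rw [hY] at hy
  induction hy using Submodule.span_induction with
  | zero => rw [mul_zero]; exact zero_mem _
  | add x y _ _ hx hy => rw [mul_add]; exact add_mem hx hy
  | smul c x _ hx => rw [mul_smul_comm]; exact Submodule.smul_mem _ c hx
  | mem x hx =>
    obtain ⟨b, f, hf, rfl⟩ := hx
    refine mem_of fun ε hε => ?_
    obtain ⟨c, k, hk, hc⟩ := pair h hs hf b hε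
    obtain ⟨b1, hb1⟩ := h1 k
    obtain ⟨n, hn⟩ := (h.link f hf).fwd k
    refine ⟨ι (b1 * b) * w f + c • (u * w f), le_V (add_mem ?_ ?_), n, ?_⟩
    · rw [hY]; exact Submodule.subset_span ⟨_, f, hf, rfl⟩
    · rcases hc with rfl | rfl
      · rw [zero_smul]; exact zero_mem _
      · exact Y.smul_mem c h2
    · have e1 : (u * (ι b * w f) - (ι (b1 * b) * w f + c • (u * w f))) * ι (e n) =
          u * (ι (s k) * ι b * ι (f k) - c • ι (f k)) * (w f * ι (e n)) := by
        have e2 : ι (f k) * (w f * ι (e n)) = w f * ι (e n) := by rw [← mul_assoc, hn]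
        rw [map_mul, ← hb1]
        simp only [mul_sub, sub_mul, add_mul, mul_assoc, smul_mul_assoc, mul_smul_comm, e2, mul_one]
        abel
      rw [e1]
      refine mul3 hu hk ((norm_mul_le _ _).trans ?_)
      exact mul_le_one₀ (unit_le (h.link f hf).unit) (norm_nonneg _) (hE n)

end C1

open C1 in
theorem claim1 {ι : B →⋆ₐ[ℂ] A} {D : Set B} {I : Set (ℕ → B)} {e : ℕ → B} {w : (ℕ → B) → A}
    (h : Data ι D I e w) (a : A) (ε : ℝ) (hε : 0 < ε) :
    ∃ (c : ℂ) (n : ℕ), ‖ι (e n) * a * ι (e n) - c • ι (e n)‖ ≤ ε := by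
  have he := h.exc e h.base
  have hE : ∀ n, ‖ι (e n)‖ ≤ 1 := fun n =>
    (NonUnitalStarAlgHom.norm_apply_le ι _).trans (norm_le (he.proj n))
  have hd : ∀ j k, j ≤ k → ι (e j) * ι (e k) = ι (e k) := fun j k hjk => by
    rw [← map_mul, he.dec j k hjk]
  have hd' : ∀ j k, j ≤ k → ι (e k) * ι (e j) = ι (e k) := fun j k hjk => by
    have := congrArg star (he.dec j k hjk)
    rw [star_mul, (he.proj j).isSelfAdjoint.star_eq, (he.proj k).isSelfAdjoint.star_eq] at this
    rw [← map_mul, this]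
  obtain ⟨Y, hY⟩ : ∃ Y, Y = Submodule.span ℂ {x | ∃ b, ∃ f ∈ I, x = ι b * w f} := ⟨_, rfl⟩
  have wY : ∀ f ∈ I, w f ∈ Y := fun f hf => by
    rw [hY]; exact Submodule.subset_span ⟨1, f, hf, by rw [map_one, one_mul]⟩
  have one : (1 : A) ∈ Y := by rw [← h.we]; exact wY e h.base
  have hb : ∀ b, ∀ z ∈ V (fun n => ι (e n)) hE hd Y, ι b * z ∈ V (fun n => ι (e n)) hE hd Y :=
    fun b z hz => mul_mem (fun y hy => le_V (by
      rw [hY] at hy ⊢
      induction hy using Submodule.span_induction with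
      | zero => rw [mul_zero]; exact zero_mem _
      | add x y _ _ hx hy => rw [mul_add]; exact add_mem hx hy
      | smul c x _ hx => rw [mul_smul_comm]; exact Submodule.smul_mem _ c hx
      | mem x hx =>
        obtain ⟨b', f, hf, rfl⟩ := hx
        exact Submodule.subset_span ⟨b * b', f, hf, by rw [map_mul, mul_assoc]⟩)) hz
  have ha : a ∈ V (fun n => ι (e n)) hE hd Y := by
    have := (h.gen (C (V (fun n => ι (e n)) hE hd Y)) closed_C
      (fun b => ⟨hb b, by rw [← map_star]; exact hb _⟩) (fun f hf => ⟨fun z hz =>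
        act h hY (unit_le (h.link f hf).unit) h.base (h.link f hf).left
          (by rw [h.we, mul_one]; exact wY f hf) hz, fun z hz =>
        act h hY (unit_le (Unitary.star_mem (h.link f hf).unit)) hf (h.link f hf).right
          (by rw [Unitary.star_mul_self_of_mem (h.link f hf).unit]; exact one) hz⟩) a).1 1
      (le_V one)
    rwa [mul_one] at this
  have hy : ∀ y ∈ Y, ∀ ε : ℝ, 0 < ε → ∃ (c : ℂ) (n : ℕ), ∀ m ≥ n,
      ‖ι (e m) * y * ι (e m) - c • ι (e m)‖ ≤ ε := fun y hy => by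
    rw [hY] at hy
    induction hy using Submodule.span_induction with
    | zero => exact fun ε hε => ⟨0, 0, fun m _ => by simpa using hε.le⟩
    | add x y _ _ hx hy =>
      intro ε hε
      obtain ⟨c, n, h1⟩ := hx (ε / 2) (by positivity)
      obtain ⟨c', n', h2⟩ := hy (ε / 2) (by positivity)
      refine ⟨c + c', max n n', fun m hm => ?_⟩
      have := h1 m (le_of_max_le_left hm)
      have := h2 m (le_of_max_le_right hm)
      rw [mul_add, add_mul, add_smul, add_sub_add_comm]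
      exact (norm_add_le _ _).trans (by linarith)
    | smul d x _ hx =>
      intro ε hε
      obtain ⟨c, n, h1⟩ := hx (ε / (‖d‖ + 1)) (by positivity)
      refine ⟨d * c, n, fun m hm => ?_⟩
      have := (le_div_iff₀ (by positivity)).1 (h1 m hm)
      rw [mul_smul_comm, smul_mul_assoc, mul_smul, ← smul_sub, norm_smul]
      nlinarith [norm_nonneg (ι (e m) * x * ι (e m) - c • ι (e m))]
    | mem x hx =>
      obtain ⟨b, f, hf, rfl⟩ := hx
      intro ε hε
      obtain ⟨c, k, hk, hc⟩ := pair h h.base hf b hε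
      obtain ⟨n, hn⟩ := (h.link f hf).fwd k
      refine ⟨c, max n k, fun m hm => ?_⟩
      have e2 : ι (f k) * (w f * ι (e m)) = w f * ι (e m) := by
        rw [← hd n m (le_of_max_le_left hm), ← mul_assoc, ← mul_assoc, hn, mul_assoc]
      have e3 : c • (ι (e m) * (w f * ι (e m))) = c • ι (e m) := by
        rcases hc with rfl | rfl
        · rw [zero_smul, zero_smul]
        · rw [h.we, one_mul, hd m m le_rfl]
      have e1 : ι (e m) * (ι b * w f) * ι (e m) - c • ι (e m) =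
          ι (e m) * (ι (e k) * ι b * ι (f k) - c • ι (f k)) * (w f * ι (e m)) := by
        have e4 : ∀ x, ι (e m) * (ι (e k) * x) = ι (e m) * x := fun x => by
          rw [← mul_assoc, hd' k m (le_of_max_le_right hm)]
        simp only [mul_sub, sub_mul, mul_smul_comm, smul_mul_assoc, mul_assoc, e2, e3, e4]
      rw [e1]
      refine mul3 (hE m) hk ((norm_mul_le _ _).trans ?_)
      exact mul_le_one₀ (unit_le (h.link f hf).unit) (norm_nonneg _) (hE m)
  obtain ⟨y, yY, n, h1⟩ := ha (ε / 2) (by positivity)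
  obtain ⟨c, n', h2⟩ := hy y yY (ε / 2) (by positivity)
  refine ⟨c, max n n', ?_⟩
  have a1 := h1 _ (le_max_left n n')
  have a2 := h2 _ (le_max_right n n')
  have e1 : ι (e (max n n')) * a * ι (e (max n n')) - c • ι (e (max n n')) =
      ι (e (max n n')) * ((a - y) * ι (e (max n n'))) +
        (ι (e (max n n')) * y * ι (e (max n n')) - c • ι (e (max n n'))) := by
    rw [sub_mul, mul_sub, mul_assoc, mul_assoc]
    abel
  have a3 := norm_mul_le (ι (e (max n n'))) ((a - y) * ι (e (max n n')))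
  have a4 := mul_le_of_le_one_left (norm_nonneg ((a - y) * ι (e (max n n')))) (hE (max n n'))
  rw [e1]
  exact (norm_add_le _ _).trans (by linarith)

end Vale.Agent.P070
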