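import Vale.Agent.P070.Defs

/-! Every irreducible representation has a vector fixed by the base sequence. -/

namespace Vale.Agent.P070

open scoped InnerProductSpace ComplexOrder ComplexConjugate
open Vale.Agent.P104 Filter Topology

variable {A B : Type*} [CStarAlgebra A] [CStarAlgebra B]
variable {H : Type*} [NormedAddCommGroup H] [InnerProductSpace ℂ H] [CompleteSpace H]

namespace C2

lemma to_zero (P : ℕ → H →L[ℂ] H) (hP : ∀ k, IsStarProjection (P k))
    (hd : ∀ j k, j ≤ k → P j * P k = P k) (h0 : ∀ x, (∀ k, P k x = x) → x = 0) (x : H) :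
    Tendsto (fun k => P k x) atTop (𝓝 0) := by
  let K : Submodule ℂ H :=
    { carrier := {x | Tendsto (fun k => P k x) atTop (𝓝 0)}
      zero_mem' := by simp
      add_mem' := fun {a b} ha hb => by
        simpa only [Set.mem_ofPred_eq, map_add, add_zero] using Tendsto.add ha hb
      smul_mem' := fun c a ha => by
        simpa only [Set.mem_ofPred_eq, map_smul, smul_zero] using Tendsto.const_smul ha c }
  have hK : K.topologicalClosure = ⊤ := by
    rw [Submodule.topologicalClosure_eq_top_iff, eq_bot_iff]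
    intro y hy
    refine h0 y fun k => ?_
    have h1 : y - P k y ∈ K := by
      refine tendsto_const_nhds.congr' (eventually_atTop.2 ⟨k, fun m hm => ?_⟩)
      have e : P m * P k = P m := by
        have := congrArg star (hd k m hm)
        rwa [star_mul, (hP k).isSelfAdjoint.star_eq, (hP m).isSelfAdjoint.star_eq] at this
      change 0 = P m (y - P k y)
      rw [map_sub, ← ContinuousLinearMap.mul_apply, e, sub_self]
    have h2 := (Submodule.mem_orthogonal K y).1 hy _ h1
    have h3 : ⟪y - P k y, P k y⟫_ℂ = 0 := by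
      rw [← ContinuousLinearMap.adjoint_inner_left, ← ContinuousLinearMap.star_eq_adjoint,
        (hP k).isSelfAdjoint.star_eq, map_sub, ← ContinuousLinearMap.mul_apply,
        (hP k).isIdempotentElem.eq, sub_self, inner_zero_left]
    have h4 : ⟪y - P k y, y - P k y⟫_ℂ = 0 := by rw [inner_sub_right, h2, h3, sub_self]
    exact (sub_eq_zero.1 (inner_self_eq_zero.1 h4)).symm
  have hx : x ∈ closure (K : Set H) := by
    rw [← Submodule.topologicalClosure_coe, hK]; trivial
  rw [NormedAddGroup.tendsto_nhds_zero]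
  intro ε hε
  obtain ⟨y, hy, hxy⟩ := Metric.mem_closure_iff.1 hx (ε / 2) (by positivity)
  filter_upwards [NormedAddGroup.tendsto_nhds_zero.1 hy (ε / 2) (by positivity)] with k hk
  have h1 : ‖P k (x - y)‖ ≤ ‖x - y‖ :=
    ((P k).le_opNorm _).trans (mul_le_of_le_one_left (norm_nonneg _) (hP k).norm_le)
  rw [dist_eq_norm] at hxy
  calc ‖P k x‖ = ‖P k (x - y) + P k y‖ := by rw [← map_add, sub_add_cancel]
    _ ≤ ‖P k (x - y)‖ + ‖P k y‖ := norm_add_le _ _
    _ < ε := by linarith

lemma inv_of {ι : B →⋆ₐ[ℂ] A} (π : A →⋆ₐ[ℂ] (H →L[ℂ] H)) {K : Submodule ℂ H}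
    (hK : IsClosed (K : Set H)) (hi : ∀ b, ∀ x ∈ K, π (ι b) x ∈ K) {u : A} {f : ℕ → B}
    (hu : ∀ n, ∃ b, u * (1 - ι (f n)) = ι b)
    (h0 : ∀ x, Tendsto (fun k => π (ι (f k)) x) atTop (𝓝 0)) : ∀ x ∈ K, π u x ∈ K := by
  intro x hx
  have h1 : Tendsto (fun k => π u (x - π (ι (f k)) x)) atTop (𝓝 (π u (x - 0))) :=
    ((π u).continuous.tendsto _).comp (tendsto_const_nhds.sub (h0 x))
  rw [sub_zero] at h1
  refine hK.mem_of_tendsto h1 (Eventually.of_forall fun k => ?_)
  obtain ⟨b, hb⟩ := hu k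
  have := hi b x hx
  rw [← hb, map_mul, map_sub, map_one] at this
  exact this

end C2

open C2

theorem claim2 {ι : B →⋆ₐ[ℂ] A} {D : Set B} {I : Set (ℕ → B)} {e : ℕ → B} {w : (ℕ → B) → A}
    (h : Data ι D I e w) (π : A →⋆ₐ[ℂ] (H →L[ℂ] H)) (hπ : Irr π)
    (hx : Irr (π.comp ι) → ∃ (f : ℕ → B) (ξ : H), Exc D f ∧ ξ ≠ 0 ∧ ∀ k, π (ι (f k)) ξ = ξ) :
    ∃ ξ : H, ξ ≠ 0 ∧ ∀ n, π (ι (e n)) ξ = ξ := by
  by_contra hne
  have h0 : ∀ ξ : H, (∀ n, π (ι (e n)) ξ = ξ) → ξ = 0 := fun ξ hξ => by
    by_contra h1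
    exact hne ⟨ξ, h1, hξ⟩
  have h1 : ∀ f ∈ I, ∀ ζ : H, (∀ m, π (ι (f m)) ζ = ζ) → ζ = 0 := fun f hf ζ hζ => by
    have hl := h.link f hf
    have e1 : π (star (w f)) ζ = 0 := h0 _ fun n => by
      obtain ⟨m, hm⟩ := hl.bwd n
      have := congrArg (fun a => π a ζ) hm
      simpa only [map_mul, ContinuousLinearMap.mul_apply, hζ] using this
    have e2 := congrArg (fun a => π a ζ) (Unitary.mul_star_self_of_mem hl.unit)
    simp only [map_mul, ContinuousLinearMap.mul_apply, e1, map_zero, map_one,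
      ContinuousLinearMap.one_apply] at e2
    exact e2.symm
  have h2 : ∀ f ∈ I, ∀ x, Tendsto (fun k => π (ι (f k)) x) atTop (𝓝 0) := fun f hf =>
    to_zero (fun k => π (ι (f k))) (fun k => (((h.exc f hf).proj k).map ι).map π)
      (fun j k hjk => by rw [← map_mul, ← map_mul, (h.exc f hf).dec j k hjk]) (h1 f hf)
  have h3 : Irr (π.comp ι) := fun K hK hi => hπ K hK fun a => by
    let C : StarSubalgebra ℂ A :=
      { carrier := {a | (∀ x ∈ K, π a x ∈ K) ∧ ∀ x ∈ K, π (star a) x ∈ K}
        mul_mem' := fun {a b} ha hb => ⟨fun x hx => by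
          rw [map_mul]; exact ha.1 _ (hb.1 x hx), fun x hx => by
          rw [star_mul, map_mul]; exact hb.2 _ (ha.2 x hx)⟩
        add_mem' := fun {a b} ha hb => ⟨fun x hx => by
          rw [map_add]; exact K.add_mem (ha.1 x hx) (hb.1 x hx), fun x hx => by
          rw [star_add, map_add]; exact K.add_mem (ha.2 x hx) (hb.2 x hx)⟩
        algebraMap_mem' := fun c => ⟨fun x hx => by
          rw [Algebra.algebraMap_eq_smul_one, map_smul, map_one]; exact K.smul_mem c hx,
          fun x hx => by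
          rw [Algebra.algebraMap_eq_smul_one, star_smul, star_one, map_smul, map_one]
          exact K.smul_mem _ hx⟩
        star_mem' := fun {a} ha => ⟨ha.2, by rw [star_star]; exact ha.1⟩ }
    have hc : IsClosed (C : Set A) := by
      have e : (C : Set A) = ⋂ x ∈ K, ((fun a => π a x) ⁻¹' K ∩ (fun a => π (star a) x) ⁻¹' K) := by
        ext a
        simp only [Set.mem_iInter, Set.mem_inter_iff, Set.mem_preimage, SetLike.mem_coe]
        exact ⟨fun ha x hx => ⟨ha.1 x hx, ha.2 x hx⟩,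
          fun ha => ⟨fun x hx => (ha x hx).1, fun x hx => (ha x hx).2⟩⟩
      rw [e]
      have c1 : Continuous π := AddMonoidHomClass.continuous_of_bound π 1 fun a => by
        rw [one_mul]; exact NonUnitalStarAlgHom.norm_apply_le π a
      refine isClosed_biInter fun x _ => (hK.preimage ?_).inter (hK.preimage ?_)
      · exact c1.clm_apply continuous_const
      · exact (c1.comp continuous_star).clm_apply continuous_const
    refine (h.gen C hc (fun b => ⟨hi b, ?_⟩) (fun f hf => ⟨?_, ?_⟩) a).1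
    · rw [← map_star]; exact hi _
    · exact inv_of π hK hi (h.link f hf).left (h2 e h.base)
    · exact inv_of π hK hi (h.link f hf).right (h2 f hf)
  obtain ⟨f, ξ, hf, hξ, hfix⟩ := hx h3
  obtain ⟨g, hg, hor⟩ := h.max f hf fun hI => hξ (h1 f hI ξ hfix)
  simp only [Orth, not_forall, not_exists, not_le] at hor
  obtain ⟨b, ε, hε, hb⟩ := hor
  have hG := h.exc g hg
  have m1 : ∀ k m, ε < ‖g k * b * f m‖ := fun k m => by
    have e1 : g (max k m) * g k = g (max k m) := by
      have := congrArg star (hG.dec k _ (le_max_left k m))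
      rwa [star_mul, (hG.proj _).isSelfAdjoint.star_eq, (hG.proj _).isSelfAdjoint.star_eq] at this
    have e2 : g (max k m) * b * f (max k m) = g (max k m) * (g k * b * f m) * f (max k m) := by
      rw [← mul_assoc, ← mul_assoc, e1, mul_assoc _ (f m), hf.dec m _ (le_max_right k m)]
    refine (hb (max k m)).trans_le ?_
    rw [e2]
    refine (norm_mul_le _ _).trans ?_
    refine (mul_le_of_le_one_right (norm_nonneg _) (hf.proj _).norm_le).trans ?_
    exact (norm_mul_le _ _).trans (mul_le_of_le_one_left (norm_nonneg _) (hG.proj _).norm_le)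
  have np : ∀ (x : B) (y : H), ‖π (ι x) y‖ ≤ ‖x‖ * ‖y‖ := fun x y =>
    ((π (ι x)).le_opNorm y).trans (mul_le_mul_of_nonneg_right
      (NonUnitalStarAlgHom.norm_apply_le (π.comp ι) x) (norm_nonneg _))
  have m2 : ∀ k, ε ^ 2 / 2 * ‖ξ‖ ≤ ‖b‖ * ‖π (ι (g k)) (π (ι b) ξ)‖ := fun k => by
    obtain ⟨c, m, hc⟩ := hf.exc (star b * g k * b) (ε ^ 2 / 4) (by positivity)
    have e1 : f m * (star b * g k * b) * f m = star (g k * b * f m) * (g k * b * f m) := by
      simp only [star_mul, (hG.proj k).isSelfAdjoint.star_eq, (hf.proj m).isSelfAdjoint.star_eq,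
        mul_assoc]
      rw [← mul_assoc (g k) (g k), (hG.proj k).isIdempotentElem.eq]
    have e2 : ε ^ 2 ≤ ‖f m * (star b * g k * b) * f m‖ := by
      rw [e1, CStarRing.norm_star_mul_self, ← sq]
      exact pow_le_pow_left₀ hε.le (m1 k m).le 2
    have e3 : ‖c • f m‖ ≤ ‖c‖ := by
      rw [norm_smul]; exact mul_le_of_le_one_right (norm_nonneg _) (hf.proj m).norm_le
    have e4 := norm_sub_norm_le (f m * (star b * g k * b) * f m) (c • f m)
    have e5 := np (f m * (star b * g k * b) * f m - c • f m) ξ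
    have e6 : π (ι (f m * (star b * g k * b) * f m - c • f m)) ξ =
        π (ι (f m * star b)) (π (ι (g k)) (π (ι b) ξ)) - c • ξ := by
      simp only [map_sub, map_mul, map_smul, ContinuousLinearMap.sub_apply,
        ContinuousLinearMap.mul_apply, ContinuousLinearMap.smul_apply, hfix]
    rw [e6] at e5
    have e7 := np (f m * star b) (π (ι (g k)) (π (ι b) ξ))
    have e8 : ‖f m * star b‖ ≤ ‖b‖ := by
      refine (norm_mul_le _ _).trans ?_
      rw [norm_star]
      exact mul_le_of_le_one_left (norm_nonneg _) (hf.proj m).norm_le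
    have e9 := norm_sub_norm_le (c • ξ) (π (ι (f m * star b)) (π (ι (g k)) (π (ι b) ξ)))
    rw [norm_sub_rev, norm_smul] at e9
    have n1 := norm_nonneg ξ
    have n2 := norm_nonneg (π (ι (g k)) (π (ι b) ξ))
    have a1 : ε ^ 2 * (3 / 4) ≤ ‖c‖ := by linarith
    nlinarith [mul_le_mul_of_nonneg_right a1 n1, mul_le_mul_of_nonneg_right hc n1,
      mul_le_mul_of_nonneg_right e8 n2]
  have m3 : Tendsto (fun k => ‖b‖ * ‖π (ι (g k)) (π (ι b) ξ)‖) atTop (𝓝 (‖b‖ * ‖(0 : H)‖)) :=
    (h2 g hg _).norm.const_mul _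
  have m4 := ge_of_tendsto' m3 m2
  rw [norm_zero, mul_zero] at m4
  exact absurd m4 (not_le.2 (mul_pos (by positivity) (norm_pos_iff.2 hξ)))

end Vale.Agent.P070
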