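import Vale.Agent.P070.Defs

/-! Part D of P070: the countable closure. -/

namespace Vale.Agent.P070

open scoped InnerProductSpace ComplexOrder ComplexConjugate
open Vale.Agent.P104 Filter Topology

lemma exists_closed {M : Type*} (R : M → M → M → Set M) (hR : ∀ x y z, (R x y z).Countable)
    (x0 : M) : ∃ D : Set M, D.Countable ∧ x0 ∈ D ∧
      ∀ x ∈ D, ∀ y ∈ D, ∀ z ∈ D, R x y z ⊆ D := by
  let T : ℕ → Set M := fun n => Nat.rec {x0}
    (fun _ s => s ∪ ⋃ x ∈ s, ⋃ y ∈ s, ⋃ z ∈ s, R x y z) n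
  have hT : ∀ n, T (n + 1) = T n ∪ ⋃ x ∈ T n, ⋃ y ∈ T n, ⋃ z ∈ T n, R x y z := fun _ => rfl
  have hc : ∀ n, (T n).Countable := fun n => by
    induction n with
    | zero => exact Set.countable_singleton x0
    | succ n ih =>
      rw [hT]
      exact ih.union (ih.biUnion fun x _ => ih.biUnion fun y _ => ih.biUnion fun z _ => hR x y z)
  have mono : Monotone T := monotone_nat_of_le_succ fun n => by
    rw [hT]; exact Set.subset_union_left
  refine ⟨⋃ n, T n, Set.countable_iUnion hc, Set.mem_iUnion.2 ⟨0, rfl⟩, ?_⟩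
  intro x hx y hy z hz w hw
  obtain ⟨i, hi⟩ := Set.mem_iUnion.1 hx
  obtain ⟨j, hj⟩ := Set.mem_iUnion.1 hy
  obtain ⟨k, hk⟩ := Set.mem_iUnion.1 hz
  refine Set.mem_iUnion.2 ⟨i + j + k + 1, ?_⟩
  rw [hT]
  refine Or.inr ?_
  simp only [Set.mem_iUnion]
  exact ⟨x, mono (by omega) hi, y, mono (by omega) hj, z, mono (by omega) hk, hw⟩

lemma exists_countable {M : Type*} [CStarAlgebra M] {t : Tr M} (h : Cl t Set.univ) :
    ∃ D : Set M, D.Countable ∧ Cl t D ∧ ∀ c : ℂ, algebraMap ℂ M c ∈ closure D := by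
  have c1 : ∀ p q : M, ∃ v : M, IsStarProjection p → IsStarProjection q →
      (t.τ p).re ≤ (t.τ q).re → star v * v = p ∧ q * v = v := fun p q => by
    by_cases hh : IsStarProjection p ∧ IsStarProjection q ∧ (t.τ p).re ≤ (t.τ q).re
    · obtain ⟨v, -, hv⟩ := h.cmp p trivial q trivial hh.1 hh.2.1 hh.2.2
      exact ⟨v, fun _ _ _ => hv⟩
    · exact ⟨0, fun a b c => absurd ⟨a, b, c⟩ hh⟩
  have c2 : ∀ p : M, ∃ v : M, IsStarProjection p →
      v * v = 0 ∧ v * star v * v = v ∧ star v * v + v * star v = p := fun p => by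
    by_cases hh : IsStarProjection p
    · obtain ⟨v, -, hv⟩ := h.half p trivial hh
      exact ⟨v, fun _ => hv⟩
    · exact ⟨0, fun a => absurd a hh⟩
  have c3 : ∀ (g l₁ l₂ : M) (n : ℕ), ∃ g' c : M, IsStarProjection g →
      IsStarProjection g' ∧ g * g' = g' ∧ ‖l₁ * g'‖ ^ 2 ≤ 1 / ((n : ℝ) + 1) ∧
      ‖l₂ * g'‖ ^ 2 ≤ 1 / ((n : ℝ) + 1) ∧
      g * (star l₁ * l₁ + star l₂ * l₂) * g - (1 / ((n : ℂ) + 1)) • (g - g') = star c * c :=
    fun g l₁ l₂ n => by
    by_cases hh : IsStarProjection g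
    · obtain ⟨g', -, c, -, hv⟩ := h.sp g trivial l₁ trivial l₂ trivial n hh
      exact ⟨g', c, fun _ => hv⟩
    · exact ⟨0, 0, fun a => absurd a hh⟩
  choose F1 h1 using c1
  choose F2 h2 using c2
  choose F3 F4 h3 using c3
  obtain ⟨q, hq⟩ := TopologicalSpace.exists_dense_seq ℂ
  obtain ⟨D, d1, d2, d3⟩ := exists_closed (fun x y z : M =>
    {x - y, x * y, star x, F1 x y, F2 x} ∪ Set.range (fun n => algebraMap ℂ M (q n)) ∪
      Set.range (F3 x y z) ∪ Set.range (F4 x y z))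
    (fun x y z => (((Set.toFinite _).countable.union (Set.countable_range _)).union
      (Set.countable_range _)).union (Set.countable_range _)) 1
  refine ⟨D, d1, ⟨d2, fun x hx y hy => d3 x hx y hy x hx (by simp),
    fun x hx y hy => d3 x hx y hy x hx (by simp), fun x hx => d3 x hx x hx x hx (by simp),
    h.tone, h.faith, h.le,
    fun p hp r hr a b c => ⟨F1 p r, d3 p hp r hr p hp (by simp), h1 p r a b c⟩,
    fun p hp a => ⟨F2 p, d3 p hp p hp p hp (by simp), h2 p a⟩,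
    fun g hg l₁ k1 l₂ k2 n a => ⟨F3 g l₁ l₂ n, d3 g hg l₁ k1 l₂ k2 (by simp),
      F4 g l₁ l₂ n, d3 g hg l₁ k1 l₂ k2 (by simp), h3 g l₁ l₂ n a⟩⟩, fun c => ?_⟩
  refine map_mem_closure (continuous_algebraMap ℂ M) (hq c) ?_
  rintro _ ⟨n, rfl⟩
  exact d3 1 d2 1 d2 1 d2 (by simp)

theorem skolem {M : Type} [CStarAlgebra M] {t : Tr M} (h : Cl t Set.univ) :
    ∃ (B : Type) (_ : CStarAlgebra B) (ι : B →⋆ₐ[ℂ] M) (D : Set B), Function.Injective ι ∧
      D.Countable ∧ Dense D ∧ Cl (t.comap ι) D := by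
  obtain ⟨D, d1, d2, d3⟩ := exists_countable h
  have hadd : ∀ x ∈ D, ∀ y ∈ D, x + y ∈ D := fun x hx y hy => by
    have := d2.sub x hx _ (d2.sub _ (d2.sub 1 d2.one 1 d2.one) y hy)
    simpa using this
  let B : StarSubalgebra ℂ M :=
    { carrier := closure D
      mul_mem' := fun ha hb => map_mem_closure₂ continuous_mul ha hb d2.mul
      add_mem' := fun ha hb => map_mem_closure₂ continuous_add ha hb hadd
      algebraMap_mem' := d3
      star_mem' := fun ha => map_mem_closure continuous_star ha d2.st }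
  have hB : IsClosed (B : Set M) := isClosed_closure
  have up : ∀ {p : B}, IsStarProjection p → IsStarProjection (p : M) := fun hp =>
    ⟨congrArg Subtype.val hp.isIdempotentElem, congrArg Subtype.val hp.isSelfAdjoint⟩
  have down : ∀ {p : B}, IsStarProjection (p : M) → IsStarProjection p := fun hp =>
    ⟨Subtype.ext hp.isIdempotentElem, Subtype.ext hp.isSelfAdjoint⟩
  refine ⟨B, inferInstance, B.subtype, Subtype.val ⁻¹' D, Subtype.val_injective,
    d1.preimage Subtype.val_injective, ?_, d2.one, fun x hx y hy => d2.sub _ hx _ hy,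
    fun x hx y hy => d2.mul _ hx _ hy, fun x hx => d2.st _ hx, d2.tone,
    fun x hx => Subtype.ext (d2.faith _ hx), fun x => d2.le x, fun p hp q hq a b c => ?_,
    fun p hp a => ?_, fun g hg l₁ k1 l₂ k2 n a => ?_⟩
  · rw [Subtype.dense_iff]
    exact closure_mono fun x hx => ⟨⟨x, subset_closure hx⟩, hx, rfl⟩
  · obtain ⟨v, hv, e1, e2⟩ := d2.cmp _ hp _ hq (up a) (up b) c
    exact ⟨⟨v, subset_closure hv⟩, hv, Subtype.ext e1, Subtype.ext e2⟩
  · obtain ⟨v, hv, e1, e2, e3⟩ := d2.half _ hp (up a)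
    exact ⟨⟨v, subset_closure hv⟩, hv, Subtype.ext e1, Subtype.ext e2, Subtype.ext e3⟩
  · obtain ⟨g', hg', c, hc, e1, e2, e3, e4, e5⟩ := d2.sp _ hg _ k1 _ k2 n (up a)
    exact ⟨⟨g', subset_closure hg'⟩, hg', ⟨c, subset_closure hc⟩, hc, down e1, Subtype.ext e2,
      e3, e4, Subtype.ext e5⟩

end Vale.Agent.P070
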