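import Vale.Agent.P070.Defs
import Vale.Agent.P104.PartB

/-! Schur lemma and a two sided density lemma for irreducible star algebras of operators. -/

namespace Vale.Agent.P070

namespace E1

open scoped InnerProductSpace ComplexConjugate

variable {K : Type*} [NormedAddCommGroup K] [InnerProductSpace ℂ K] [CompleteSpace K]

/-- No nontrivial closed invariant subspace. -/
def IrrS (A : Set (K →L[ℂ] K)) : Prop :=
  ∀ W : Submodule ℂ K, IsClosed (W : Set K) → (∀ a ∈ A, ∀ v ∈ W, a v ∈ W) → W = ⊥ ∨ W = ⊤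

lemma schur_sa {A : Set (K →L[ℂ] K)} (hA : IrrS A) (T : K →L[ℂ] K) (hs : IsSelfAdjoint T)
    (hT : ∀ a ∈ A, a * T = T * a) : ∃ c : ℝ, T = algebraMap ℝ _ c := by
  by_cases h : (spectrum ℝ T).Subsingleton
  · rcases h.eq_empty_or_singleton with e | ⟨c, e⟩
    · refine ⟨0, ?_⟩
      rw [← cfc_id ℝ T, ← cfc_const (0 : ℝ) T]
      exact cfc_congr (by rw [e]; exact Set.eqOn_empty _ _)
    · refine ⟨c, ?_⟩
      rw [← cfc_id ℝ T, ← cfc_const c T]
      exact cfc_congr (by rw [e]; rintro x rfl; rfl)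
  · exfalso
    obtain ⟨s, hs', t, ht', hst⟩ := Set.not_subsingleton_iff.1 h
    wlog hlt : s < t generalizing s t
    · exact this t ht' s hs' hst.symm (lt_of_le_of_ne (not_lt.1 hlt) hst.symm)
    set m := (s + t) / 2 with hm
    let f : ℝ → ℝ := fun x => max (m - x) 0
    let g : ℝ → ℝ := fun x => max (x - m) 0
    have hf : Continuous f := by fun_prop
    have hg : Continuous g := by fun_prop
    have nz : ∀ (k : ℝ → ℝ), Continuous k → ∀ x ∈ spectrum ℝ T, k x ≠ 0 → cfc k T ≠ 0 := by
      intro k hk x hx h0 e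
      have := norm_apply_le_norm_cfc k T hx
      rw [e, norm_zero] at this
      exact h0 (norm_le_zero_iff.1 this)
    have fg : cfc g T * cfc f T = 0 := by
      rw [← cfc_mul g f T, ← cfc_zero ℝ T]
      refine cfc_congr fun x _ => ?_
      simp only [f, g, Pi.zero_apply]
      rcases le_total x m with e | e
      · rw [max_eq_right (by linarith : x - m ≤ 0), zero_mul]
      · rw [max_eq_right (by linarith : m - x ≤ 0), mul_zero]
    rcases hA (LinearMap.ker (cfc g T : K →L[ℂ] K).toLinearMap)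
      (ContinuousLinearMap.isClosed_ker _) (fun a ha v hv => by
        have c : Commute (cfc g T) a := Commute.cfc_real (hT a ha).symm g
        have : cfc g T (a v) = a (cfc g T v) := congrArg (fun x : K →L[ℂ] K => x v) c
        have hv' : cfc g T v = 0 := hv
        change cfc g T (a v) = 0
        rw [this, hv', map_zero]) with e | e
    · refine nz f hf s hs' (by simp only [f]; rw [max_eq_left (by linarith)]; linarith) ?_
      ext v
      have : cfc f T v ∈ LinearMap.ker (cfc g T : K →L[ℂ] K).toLinearMap :=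
        congrArg (fun x : K →L[ℂ] K => x v) fg
      rw [e] at this
      exact this
    · refine nz g hg t ht' (by simp only [g]; rw [max_eq_left (by linarith)]; linarith) ?_
      ext v
      have : v ∈ LinearMap.ker (cfc g T : K →L[ℂ] K).toLinearMap := e ▸ Submodule.mem_top
      exact this

lemma schur {A : Set (K →L[ℂ] K)} (hA : IrrS A) (hs : ∀ a ∈ A, star a ∈ A) (T : K →L[ℂ] K)
    (hT : ∀ a ∈ A, a * T = T * a) : ∃ c : ℂ, T = c • 1 := by
  have hT' : ∀ a ∈ A, a * star T = star T * a := fun a ha => by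
    have := congrArg star (hT _ (hs a ha))
    simpa using this.symm
  obtain ⟨c, hc⟩ := schur_sa hA (T + star T) (IsSelfAdjoint.add_star_self T) fun a ha => by
    rw [mul_add, add_mul, hT a ha, hT' a ha]
  obtain ⟨d, hd⟩ := schur_sa hA (Complex.I • (T - star T)) (by
    simp only [IsSelfAdjoint, star_smul, star_sub, star_star, Complex.star_def, Complex.conj_I]
    rw [neg_smul, ← smul_neg, neg_sub]) fun a ha => by
    rw [mul_smul_comm, smul_mul_assoc, mul_sub, sub_mul, hT a ha, hT' a ha]
  refine ⟨(c - Complex.I * d) / 2, ?_⟩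
  rw [Algebra.algebraMap_eq_smul_one, ← Complex.coe_smul] at hc hd
  have : T = (1 / 2 : ℂ) • ((T + star T) - Complex.I • Complex.I • (T - star T)) := by
    rw [smul_smul, Complex.I_mul_I]
    module
  rw [this, hc, hd]
  module

end E1

open scoped InnerProductSpace ComplexOrder ComplexConjugate
open Vale.Agent.P104 Filter Topology

variable {A : Type*} [CStarAlgebra A]
variable {H : Type*} [NormedAddCommGroup H] [InnerProductSpace ℂ H] [CompleteSpace H]

theorem dens (π : A →⋆ₐ[ℂ] (H →L[ℂ] H)) (hπ : Irr π) {ξ η : H} (h : ⟪ξ, η⟫_ℂ = 0) {δ : ℝ}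
    (hδ : 0 < δ) : ∃ a : A, ‖π (star a) ξ‖ ≤ δ ∧ ‖π a η - η‖ ≤ δ := by
  have hI : E1.IrrS (Set.range π) := fun W hW h1 => hπ W hW fun a x hx => h1 _ ⟨a, rfl⟩ x hx
  have hall : ∀ T : H →L[ℂ] H, T ∈ vN (vN (Set.range π) : Set (H →L[ℂ] H)) := by
    intro T
    have key : ∀ g ∈ vN (Set.range π), g * T = T * g := fun g hg => by
      obtain ⟨c, rfl⟩ := E1.schur hI (by rintro _ ⟨a, rfl⟩; exact ⟨star a, map_star π a⟩) g
        fun a ha => ((StarSubalgebra.mem_centralizer_iff ℂ).1 hg a ha).1
      simp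
    exact (StarSubalgebra.mem_centralizer_iff ℂ).2 fun g hg => ⟨key g hg, key _ (star_mem hg)⟩
  let W : Set (H × H) := Set.range fun a : A => (π (star a) ξ, π a η)
  have hW : Convex ℝ W := by
    rintro _ ⟨a, rfl⟩ _ ⟨b, rfl⟩ s t - - -
    refine ⟨(s : ℂ) • a + (t : ℂ) • b, ?_⟩
    simp only [star_add, star_smul, Complex.star_def, Complex.conj_ofReal, map_add, map_smul,
      ContinuousLinearMap.add_apply, ContinuousLinearMap.smul_apply, Prod.smul_mk, Prod.mk_add_mk]
    simp only [Complex.coe_smul]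
  have hm : ((0 : H), η) ∈ closure W := by
    by_contra hn
    obtain ⟨f, u, h1, h2⟩ :=
      RCLike.geometric_hahn_banach_point_closed (𝕜 := ℂ) hW.closure isClosed_closure hn
    obtain ⟨α, hα⟩ := (InnerProductSpace.toDual ℂ H).surjective
      (f.comp (ContinuousLinearMap.inl ℂ H H))
    have hα' : ∀ x, f (x, 0) = ⟪α, x⟫_ℂ := fun x => (congrArg (fun g : H →L[ℂ] ℂ => g x) hα).symm
    have hf : ∀ x y, f (x, y) = ⟪α, x⟫_ℂ + f (0, y) := fun x y => by
      rw [← hα', ← map_add]
      simp
    have := B.bicomm π (hall (ℂ ∙ η).starProjection) ![α, η]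
      (F := {w | u ≤ (⟪w 0, ξ⟫_ℂ + f (0, w 1)).re})
      (isClosed_le continuous_const (by fun_prop)) fun a => by
        have := (h2 _ (subset_closure ⟨a, rfl⟩)).le
        rw [hf, map_star, ContinuousLinearMap.star_eq_adjoint,
          ContinuousLinearMap.adjoint_inner_right] at this
        exact this
    obtain ⟨c, hc⟩ := Submodule.mem_span_singleton.1 ((ℂ ∙ η).starProjection_apply_mem α)
    have e : (ℂ ∙ η).starProjection η = η :=
      Submodule.starProjection_eq_self_iff.2 (Submodule.mem_span_singleton_self η)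
    simp only [Set.mem_setOf_eq, Matrix.cons_val_zero, Matrix.cons_val_one, e, ← hc,
      inner_smul_left, inner_eq_zero_symm.1 h, mul_zero, zero_add] at this
    exact absurd h1 (not_lt.2 this)
  obtain ⟨_, ⟨a, rfl⟩, ha⟩ := Metric.mem_closure_iff.1 hm δ hδ
  rw [dist_comm, Prod.dist_eq, max_lt_iff, dist_eq_norm, dist_eq_norm, sub_zero] at ha
  exact ⟨a, ha.1.le, ha.2.le⟩

end Vale.Agent.P070
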