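import Vale.Agent.P070.Defs

/-! Part E2 of P070: every irreducible representation has a vector fixed by an excising
sequence. -/

namespace Vale.Agent.P070

open scoped InnerProductSpace ComplexOrder ComplexConjugate
open Vale.Agent.P104 Filter Topology

variable {B : Type*} [CStarAlgebra B]
variable {H : Type*} [NormedAddCommGroup H] [InnerProductSpace ℂ H] [CompleteSpace H]

namespace E2

lemma inner_sq (π : B →⋆ₐ[ℂ] (H →L[ℂ] H)) (x : B) (ξ : H) :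
    ⟪ξ, π (star x * x) ξ⟫_ℂ = ((‖π x ξ‖ ^ 2 : ℝ) : ℂ) := by
  rw [map_mul, map_star, mul_apply_eq_comp, ContinuousLinearMap.star_eq_adjoint,
    ContinuousLinearMap.adjoint_inner_right, inner_self_eq_norm_sq_to_K]
  simp

lemma apply_le (π : B →⋆ₐ[ℂ] (H →L[ℂ] H)) (x : B) (ξ : H) : ‖π x ξ‖ ≤ ‖x‖ * ‖ξ‖ :=
  ((π x).le_opNorm ξ).trans
    (mul_le_mul_of_nonneg_right (NonUnitalStarAlgHom.norm_apply_le π x) (norm_nonneg _))

lemma norm_proj {g : B} (pg : IsStarProjection g) : ‖g‖ ≤ 1 := pg.norm_le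

lemma cut (π : B →⋆ₐ[ℂ] (H →L[ℂ] H)) {g g' l₁ l₂ c : B} (pg : IsStarProjection g)
    (pg' : IsStarProjection g') (hgg : g * g' = g') {ξ : H} (hξ : π g ξ = ξ) {l : ℝ}
    (e : g * (star l₁ * l₁ + star l₂ * l₂) * g - (l : ℂ) • (g - g') = star c * c) :
    l * ‖ξ - π g' ξ‖ ^ 2 ≤ ‖π l₁ ξ‖ ^ 2 + ‖π l₂ ξ‖ ^ 2 := by
  have s1 : star g = g := pg.isSelfAdjoint
  have s2 : star g' = g' := pg'.isSelfAdjoint
  have hg'g : g' * g = g' := by
    have := congrArg star hgg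
    rwa [star_mul, s1, s2] at this
  have e1 : star (g - g') * (g - g') = g - g' := by
    rw [star_sub, s1, s2, sub_mul, mul_sub, mul_sub, hgg, hg'g, pg.isIdempotentElem.eq,
      pg'.isIdempotentElem.eq, sub_self, sub_zero]
  have e2 : star (l₁ * g) * (l₁ * g) + star (l₂ * g) * (l₂ * g) =
      (l : ℂ) • (star (g - g') * (g - g')) + star c * c := by
    rw [e1, ← e, star_mul, star_mul, s1]
    noncomm_ring
  have e3 := congrArg (fun x => ⟪ξ, π x ξ⟫_ℂ) e2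
  simp only [map_add, map_smul, add_apply, smul_apply, inner_add_right, inner_smul_right,
    inner_sq] at e3
  simp only [map_mul, map_sub, mul_apply_eq_comp, sub_apply, hξ] at e3
  have e4 : ‖π l₁ ξ‖ ^ 2 + ‖π l₂ ξ‖ ^ 2 = l * ‖ξ - π g' ξ‖ ^ 2 + ‖π c ξ‖ ^ 2 := by
    exact_mod_cast e3
  nlinarith [sq_nonneg ‖π c ξ‖]

lemma step {t : Tr B} {D : Set B} (h : Cl t D) (hD : Dense D) (π : B →⋆ₐ[ℂ] (H →L[ℂ] H))
    (hd : ∀ ξ η : H, ⟪ξ, η⟫_ℂ = 0 → ∀ δ : ℝ, 0 < δ →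
      ∃ a : B, ‖π (star a) ξ‖ ≤ δ ∧ ‖π a η - η‖ ≤ δ)
    {g : B} (hg : g ∈ D) (pg : IsStarProjection g) {ξ : H} (hξ : π g ξ = ξ) (b : B) {ε : ℝ}
    (hε : 0 < ε) : ∃ g' ∈ D, IsStarProjection g' ∧ g * g' = g' ∧ ‖ξ - π g' ξ‖ ≤ ε ∧
      ∃ c : ℂ, ‖g' * b * g' - c • g'‖ ≤ ε := by
  obtain ⟨c, hc⟩ : ∃ c : ℂ, ⟪ξ, π (b - c • 1) ξ⟫_ℂ = 0 := by
    refine ⟨⟪ξ, π b ξ⟫_ℂ / ⟪ξ, ξ⟫_ℂ, ?_⟩
    by_cases h0 : ξ = 0
    · simp [h0]
    · have : ⟪ξ, ξ⟫_ℂ ≠ 0 := inner_self_ne_zero.2 h0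
      rw [map_sub, map_smul, map_one, sub_apply, smul_apply, one_apply_eq_self, inner_sub_right,
        inner_smul_right, div_mul_cancel₀ _ this, sub_self]
  set b' := b - c • (1 : B) with hb'
  obtain ⟨n, hn⟩ := exists_nat_one_div_lt (show 0 < (ε / 4) ^ 2 by positivity)
  set l : ℝ := 1 / ((n : ℝ) + 1) with hl
  have l0 : 0 < l := by positivity
  have l1 : l ≤ 1 := by
    rw [hl, div_le_one (by positivity)]
    linarith [n.cast_nonneg (α := ℝ)]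
  set C : ℝ := 1 + ‖b'‖ + ‖ξ‖ with hC
  have C0 : 0 < C := by positivity
  obtain ⟨δ, δ0, δ1, δ2⟩ : ∃ δ : ℝ, 0 < δ ∧ δ ≤ ε / 4 ∧ δ * C ≤ l * ε / 2 :=
    ⟨min (ε / 4) (l * ε / 2 / C), by positivity, min_le_left _ _,
      (le_div_iff₀ C0).1 (min_le_right _ _)⟩
  obtain ⟨a, a1, a2⟩ := hd ξ _ hc δ δ0
  obtain ⟨l₁, k1, m1⟩ := hD.exists_dist_lt ((1 - a) * b') δ0
  obtain ⟨l₂, k2, m2⟩ := hD.exists_dist_lt (star b' * star a) δ0
  rw [dist_eq_norm] at m1 m2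
  obtain ⟨g', hg', d, -, pg', hgg, n1, n2, e⟩ := h.sp g hg l₁ k1 l₂ k2 n pg
  have s2 : star g' = g' := pg'.isSelfAdjoint
  have ng := norm_proj pg'
  refine ⟨g', hg', pg', hgg, ?_, c, ?_⟩
  · have h1 := cut π (l := l) (l₁ := l₁) (l₂ := l₂) (c := d) pg pg' hgg hξ
      (by rw [hl]; push_cast; exact e)
    have near : ∀ x y : B, ‖x - y‖ < δ → ‖π y ξ‖ ≤ ‖π x ξ‖ + δ * ‖ξ‖ := fun x y hxy => by
      have e1 : π y ξ = π x ξ - π (x - y) ξ := by simp
      rw [e1]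
      refine (norm_sub_le _ _).trans (add_le_add le_rfl ((apply_le π _ _).trans ?_))
      exact mul_le_mul_of_nonneg_right hxy.le (norm_nonneg _)
    have h2 : ‖π l₁ ξ‖ ≤ l * ε / 2 := by
      have := near _ _ m1
      rw [map_mul, map_sub, map_one, mul_apply_eq_comp, sub_apply, one_apply_eq_self,
        norm_sub_rev] at this
      nlinarith [norm_nonneg b']
    have h3 : ‖π l₂ ξ‖ ≤ l * ε / 2 := by
      have := near _ _ m2
      rw [map_mul, mul_apply_eq_comp] at this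
      have h4 := apply_le π (star b') (π (star a) ξ)
      rw [norm_star] at h4
      nlinarith [norm_nonneg b', mul_le_mul_of_nonneg_left a1 (norm_nonneg b')]
    have h5 : l * ‖ξ - π g' ξ‖ ^ 2 ≤ l * ε ^ 2 := by
      have p2 := pow_le_pow_left₀ (norm_nonneg _) h2 2
      have p3 := pow_le_pow_left₀ (norm_nonneg _) h3 2
      have : l * (l * ε ^ 2) ≤ l * ε ^ 2 := mul_le_of_le_one_left (by positivity) l1
      nlinarith [mul_pos l0 (pow_pos hε 2)]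
    exact (abs_le_of_sq_le_sq' (le_of_mul_le_mul_left h5 l0) hε.le).2
  · have near : ∀ x y : B, ‖x - y‖ < δ → ‖y * g'‖ ^ 2 ≤ l → ‖x * g'‖ ≤ ε / 2 := fun x y hxy hy => by
      have h1 : ‖y * g'‖ ≤ ε / 4 := (abs_le_of_sq_le_sq' (hy.trans hn.le) (by positivity)).2
      have e1 : x * g' = y * g' + (x - y) * g' := by noncomm_ring
      have h2 := norm_mul_le (x - y) g'
      rw [e1]
      refine (norm_add_le _ _).trans ?_
      nlinarith [norm_nonneg (x - y), norm_nonneg g']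
    have h1 := near _ _ m1 n1
    have h2 := near _ _ m2 n2
    have e1 : g' * b * g' - c • g' =
        g' * ((1 - a) * b' * g') + star (star b' * star a * g') * g' := by
      have : g' * b * g' - c • g' = g' * b' * g' := by
        rw [hb', mul_sub, sub_mul, mul_smul_comm, mul_one, smul_mul_assoc,
          pg'.isIdempotentElem.eq]
      rw [this, star_mul, star_mul, star_star, star_star, s2]
      noncomm_ring
    rw [e1]
    refine (norm_add_le _ _).trans ?_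
    have h3 := norm_mul_le g' ((1 - a) * b' * g')
    have h4 := norm_mul_le (star (star b' * star a * g')) g'
    rw [norm_star] at h4
    nlinarith [norm_nonneg ((1 - a) * b' * g'), norm_nonneg (star b' * star a * g'),
      norm_nonneg g']

end E2

theorem exc {t : Tr B} {D : Set B} (h : Cl t D) (hc : D.Countable) (hD : Dense D) [Nontrivial H]
    (π : B →⋆ₐ[ℂ] (H →L[ℂ] H)) (hd : ∀ ξ η : H, ⟪ξ, η⟫_ℂ = 0 → ∀ δ : ℝ, 0 < δ →
      ∃ a : B, ‖π (star a) ξ‖ ≤ δ ∧ ‖π a η - η‖ ≤ δ) :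
    ∃ (f : ℕ → B) (ξ : H), Exc D f ∧ ξ ≠ 0 ∧ ∀ k, π (f k) ξ = ξ := by
  obtain ⟨d, hdr⟩ := hc.exists_eq_range ⟨1, h.one⟩
  obtain ⟨x0, hx0⟩ : ∃ x : H, ‖x‖ = 1 := exists_norm_eq H zero_le_one
  let St := {s : B × H // s.1 ∈ D ∧ IsStarProjection s.1 ∧ π s.1 s.2 = s.2}
  have st : ∀ (n : ℕ) (s : St), ∃ s' : St, s.1.1 * s'.1.1 = s'.1.1 ∧ s'.1.2 = π s'.1.1 s.1.2 ∧
      ‖s.1.2 - s'.1.2‖ ≤ 4⁻¹ * (2⁻¹ : ℝ) ^ n ∧
      ∃ c : ℂ, ‖s'.1.1 * d (Nat.unpair n).1 * s'.1.1 - c • s'.1.1‖ ≤ 4⁻¹ * (2⁻¹ : ℝ) ^ n := by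
    rintro n ⟨⟨g, ξ⟩, hg, pg, hξ⟩
    obtain ⟨g', a1, a2, a3, a4, a5⟩ := E2.step h hD π hd hg pg hξ (d (Nat.unpair n).1)
      (ε := 4⁻¹ * (2⁻¹ : ℝ) ^ n) (by positivity)
    refine ⟨⟨(g', π g' ξ), a1, a2, ?_⟩, a3, rfl, a4, a5⟩
    change π g' (π g' ξ) = π g' ξ
    rw [← mul_apply_eq_comp, ← map_mul, a2.isIdempotentElem.eq]
  choose F F1 F2 F3 F4 using st
  let s : ℕ → St := fun n => Nat.rec ⟨(1, x0), h.one, IsStarProjection.one _, by simp⟩ F n
  have hs : ∀ n, s (n + 1) = F n (s n) := fun _ => rfl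
  let f : ℕ → B := fun n => (s n).1.1
  let x : ℕ → H := fun n => (s n).1.2
  have pf : ∀ n, IsStarProjection (f n) := fun n => (s n).2.2.1
  have dec : ∀ j k, j ≤ k → f j * f k = f k := fun j k hjk => by
    induction k, hjk using Nat.le_induction with
    | base => exact (pf j).isIdempotentElem
    | succ k _ ih =>
      have : f k * f (k + 1) = f (k + 1) := F1 k (s k)
      rw [← this, ← mul_assoc, ih]
  have dec' : ∀ j k, j ≤ k → f k * f j = f k := fun j k hjk => by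
    have := congrArg star (dec j k hjk)
    rwa [star_mul, (pf j).isSelfAdjoint.star_eq, (pf k).isSelfAdjoint.star_eq] at this
  have hx : ∀ n, dist (x n) (x (n + 1)) ≤ 4⁻¹ * (2⁻¹ : ℝ) ^ n := fun n => by
    rw [dist_eq_norm]; exact F3 n (s n)
  obtain ⟨ξ, hξ⟩ := cauchySeq_tendsto_of_complete
    (cauchySeq_of_le_geometric 2⁻¹ 4⁻¹ (by norm_num) hx)
  have hξ0 : ξ ≠ 0 := by
    rintro rfl
    have := dist_le_of_le_geometric_of_tendsto₀ 2⁻¹ 4⁻¹ (by norm_num) hx hξ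
    change dist x0 0 ≤ _ at this
    rw [dist_zero_right, hx0] at this
    norm_num at this
  have fix : ∀ k, π (f k) ξ = ξ := fun k => by
    refine tendsto_nhds_unique (((π (f k)).continuous.tendsto _).comp hξ) (hξ.congr' ?_)
    filter_upwards [eventually_ge_atTop k] with n hn
    have : π (f n) (x n) = x n := (s n).2.2.2
    change x n = π (f k) (x n)
    rw [← this, ← mul_apply_eq_comp, ← map_mul, dec k n hn]
  refine ⟨f, ξ, ⟨⟨fun k => (s k).2.1, pf, fun k h0 => hξ0 ?_, dec⟩, fun b ε hε => ?_⟩, hξ0, fix⟩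
  · rw [← fix k, h0, map_zero, zero_apply]
  · obtain ⟨_, hb, m1⟩ := hD.exists_dist_lt b (half_pos hε)
    rw [hdr] at hb
    obtain ⟨i, rfl⟩ := hb
    obtain ⟨m, hm⟩ := exists_pow_lt_of_lt_one hε (show (2⁻¹ : ℝ) < 1 by norm_num)
    obtain ⟨c, hc⟩ := F4 (Nat.pair i m) (s (Nat.pair i m))
    rw [Nat.unpair_pair] at hc
    refine ⟨c, Nat.pair i m + 1, ?_⟩
    set g := f (Nat.pair i m + 1) with hg
    change ‖g * d i * g - c • g‖ ≤ _ at hc
    have e1 : g * b * g - c • g = (g * d i * g - c • g) + g * (b - d i) * g := by noncomm_ring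
    have ng : ‖g‖ ≤ 1 := E2.norm_proj (pf (Nat.pair i m + 1))
    have h1 : ‖g * (b - d i) * g‖ ≤ ‖b - d i‖ := by
      refine (norm_mul_le _ _).trans ((mul_le_of_le_one_right (norm_nonneg _) ng).trans ?_)
      exact (norm_mul_le _ _).trans (mul_le_of_le_one_left (norm_nonneg _) ng)
    have h2 : (2⁻¹ : ℝ) ^ Nat.pair i m ≤ 2⁻¹ ^ m :=
      pow_le_pow_of_le_one (by norm_num) (by norm_num) (Nat.right_le_pair i m)
    rw [dist_eq_norm] at m1
    rw [e1]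
    refine (norm_add_le _ _).trans ?_
    linarith

end Vale.Agent.P070
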