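import Vale.Agent.P070.Defs
import Vale.Agent.P085.PartN
import Vale.Agent.P085.PartA1

/-! Part M2 of P070: a II_1 factor satisfies the closure conditions. -/

namespace Vale.Agent.P070

open scoped InnerProductSpace ComplexOrder ComplexConjugate
open Vale.Agent.P104 Filter Topology

variable {H : Type*} [NormedAddCommGroup H] [InnerProductSpace ℂ H] [CompleteSpace H]

namespace M2

lemma norm_cut {g' a y : H →L[ℂ] H} {l : ℝ} (hl : 0 ≤ l) (hg : IsStarProjection g')
    (h1 : star a * a ≤ y) (h2 : g' * y * g' ≤ (l : ℂ) • g') : ‖a * g'‖ ^ 2 ≤ l := by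
  have e1 : star (a * g') * (a * g') ≤ (l : ℂ) • g' := by
    refine le_trans ?_ h2
    have := star_left_conjugate_le_conjugate h1 g'
    rw [hg.isSelfAdjoint.star_eq] at this
    rw [star_mul, hg.isSelfAdjoint.star_eq]
    simpa only [mul_assoc] using this
  have e2 := CStarAlgebra.norm_le_norm_of_nonneg_of_le (star_mul_self_nonneg _) e1
  rw [CStarRing.norm_star_mul_self, ← sq, norm_smul, Complex.norm_real, Real.norm_of_nonneg hl]
    at e2
  exact e2.trans (mul_le_of_le_one_right hl hg.norm_le)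

lemma sp_op {g l₁ l₂ : H →L[ℂ] H} (hg : IsStarProjection g) {l : ℝ} (hl : 0 ≤ l) :
    ∃ r : H →L[ℂ] H, (∀ t, Commute t (g * (star l₁ * l₁ + star l₂ * l₂) * g) → Commute t r) ∧
      IsStarProjection (g * (1 - r)) ∧ ‖l₁ * (g * (1 - r))‖ ^ 2 ≤ l ∧
      ‖l₂ * (g * (1 - r))‖ ^ 2 ≤ l ∧
      0 ≤ g * (star l₁ * l₁ + star l₂ * l₂) * g - (l : ℂ) • (g - g * (1 - r)) := by
  set z := star l₁ * l₁ + star l₂ * l₂ with hz
  have z0 : 0 ≤ z := add_nonneg (star_mul_self_nonneg _) (star_mul_self_nonneg _)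
  have gs := hg.isSelfAdjoint.star_eq
  have gg : g * g = g := hg.isIdempotentElem
  set y := g * z * g with hy
  have y0 : 0 ≤ y := by
    have := star_left_conjugate_nonneg z0 g
    rwa [gs] at this
  obtain ⟨r, pr, cr, s1, s2⟩ := exists_spectral (IsSelfAdjoint.of_nonneg y0) l
  have gy : g * y = y := by rw [hy, ← mul_assoc, ← mul_assoc, gg]
  have yg : y * g = y := by rw [hy, mul_assoc, gg]
  have cg : g * r = r * g := cr g (gy.trans yg.symm)
  have cy : y * r = r * y := cr y (Commute.refl y)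
  have rr : r * r = r := pr.isIdempotentElem
  have rs := pr.isSelfAdjoint.star_eq
  have cg' : g * (1 - r) = (1 - r) * g := by rw [mul_sub, sub_mul, cg, mul_one, one_mul]
  have pg : IsStarProjection (g * (1 - r)) := hg.mul pr.one_sub cg'
  have k : g * (1 - r) * z * (g * (1 - r)) ≤ (l : ℂ) • (g * (1 - r)) := by
    have := star_left_conjugate_le_conjugate s2 g
    rw [gs] at this
    have e1 : g * ((1 - r) * y * (1 - r)) * g = g * (1 - r) * z * (g * (1 - r)) := by
      calc g * ((1 - r) * y * (1 - r)) * g = (g * (1 - r) * g) * z * (g * ((1 - r) * g)) := by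
            rw [hy]; simp only [mul_assoc]
        _ = _ := by rw [← cg', ← mul_assoc g g, gg, mul_assoc g (1 - r) g, ← cg',
            ← mul_assoc g g, gg]
    have e2 : g * ((l : ℂ) • (1 - r)) * g = (l : ℂ) • (g * (1 - r)) := by
      rw [mul_smul_comm, smul_mul_assoc, mul_assoc, ← cg', ← mul_assoc, gg]
    rwa [e1, e2] at this
  refine ⟨r, cr, pg, norm_cut hl pg (le_add_of_nonneg_right (star_mul_self_nonneg _)) k,
    norm_cut hl pg (le_add_of_nonneg_left (star_mul_self_nonneg _)) k, ?_⟩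
  have a1 := star_left_conjugate_nonneg (sub_nonneg.2 s1) g
  have a2 := star_left_conjugate_nonneg y0 (1 - r)
  rw [gs] at a1
  rw [star_sub, star_one, rs] at a2
  have e : y - (l : ℂ) • (g - g * (1 - r)) =
      g * (r * y * r - (l : ℂ) • r) * g + (1 - r) * y * (1 - r) := by
    have b1 : r * y * r = y * r := by rw [← cy, mul_assoc, rr]
    have b2 : g * (y * r) * g = y * r := by
      rw [← mul_assoc, gy, mul_assoc, ← cg, ← mul_assoc, yg]
    have b3 : g * r * g = g * r := by rw [mul_assoc, ← cg, ← mul_assoc, gg]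
    have b4 : (1 - r) * y * (1 - r) = y - y * r := by
      rw [sub_mul, one_mul, ← cy, mul_sub, mul_one, sub_mul, mul_assoc y r r, rr, sub_self,
        sub_zero]
    rw [b4, b1, mul_sub g (y * r), sub_mul, b2, mul_smul_comm, smul_mul_assoc, b3, mul_sub g 1,
      mul_one, sub_sub_cancel]
    abel
  rw [e]
  exact add_nonneg a1 a2

end M2

theorem cl_of_good {S : Set (H →L[ℂ] H)} {t : Tr (vN S)} (h : P085.Good t) :
    Cl t Set.univ ∧ Cpl t := by
  refine ⟨⟨trivial, fun _ _ _ _ => trivial, fun _ _ _ _ => trivial, fun _ _ => trivial, h.one,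
    h.faith, ?_, ?_, ?_, ?_⟩, fun u hu hc => P085.unitary_complete h u hu hc⟩
  · intro x
    have := t.N_mul_le_norm x 1
    rw [mul_one, t.N_one, h.one, Complex.one_re, mul_one] at this
    exact this
  · intro p _ q _ pp pq hle
    obtain ⟨u, h1, h2, h3, h4⟩ := P085.A1.cmp h.fac pp pq
    refine ⟨u, trivial, ?_, h3⟩
    rcases h4 with h4 | h4
    · have pe0 : IsStarProjection (p - star u * u) :=
        C.proj_sub pp (C.proj_src h1) (by rw [mul_assoc, h2])
      have h0 : 0 ≤ ((p - star u * u : vN S) : H →L[ℂ] H) := (C.proj_coe' pe0).nonneg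
      have := P085.A1.eq_zero_of_τ h.faith h0 (le_antisymm (by
        rw [map_sub, t.comm, h4, Complex.sub_re]; linarith) (t.re_nonneg h0))
      exact (sub_eq_zero.1 this).symm
    · exact h4
  · intro p _ pp
    obtain ⟨v, hv, h1, h2, h3⟩ := exists_halving p.2 (C.proj_coe' pp)
      (fun q hq _ => h.na q hq (mul_one q))
    exact ⟨⟨v, hv⟩, trivial, Subtype.ext h1, Subtype.ext h2, Subtype.ext h3⟩
  · intro g _ l₁ _ l₂ _ n pg
    have hl : (0 : ℝ) ≤ 1 / ((n : ℝ) + 1) := by positivity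
    obtain ⟨r, cr, k1, k2, k3, k4⟩ := M2.sp_op (l₁ := (l₁ : H →L[ℂ] H)) (l₂ := (l₂ : H →L[ℂ] H))
      (C.proj_coe' pg) hl
    have hr : r ∈ vN S := C.mem_vN.2 fun x hx =>
      cr x (C.mem_vN.1 (g * (star l₁ * l₁ + star l₂ * l₂) * g).2 x hx)
    set r' : vN S := ⟨r, hr⟩ with hr'
    have e : ((1 / ((n : ℝ) + 1) : ℝ) : ℂ) = 1 / ((n : ℂ) + 1) := by push_cast; rfl
    rw [e] at k4
    obtain ⟨c, hc⟩ := C.sq_of_nonneg (a := g * (star l₁ * l₁ + star l₂ * l₂) * g -
      (1 / ((n : ℂ) + 1)) • (g - g * (1 - r'))) k4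
    refine ⟨g * (1 - r'), trivial, c, trivial, C.proj_coe k1, ?_, k2, k3, hc⟩
    rw [← mul_assoc, pg.isIdempotentElem.eq]

end Vale.Agent.P070
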