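import Vale.Agent.P070.Defs

namespace Vale.Agent.P070

open scoped InnerProductSpace ComplexOrder ComplexConjugate
open Vale.Agent.P104 Filter Topology

variable {A B : Type*} [CStarAlgebra A] [CStarAlgebra B]
variable {H K : Type*} [NormedAddCommGroup H] [InnerProductSpace ℂ H] [CompleteSpace H]
  [NormedAddCommGroup K] [InnerProductSpace ℂ K] [CompleteSpace K]

namespace Q

lemma near (π : A →⋆ₐ[ℂ] (H →L[ℂ] H)) {p a : A} (hp : star p = p) {c : ℂ} {ε : ℝ}
    (h : ‖p * a * p - c • p‖ ≤ ε) {ξ : H} (hξ : ‖ξ‖ = 1) (h1 : π p ξ = ξ) :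
    ‖⟪ξ, π a ξ⟫_ℂ - c‖ ≤ ε := by
  have e1 : ⟪ξ, π (p * a * p - c • p) ξ⟫_ℂ = ⟪ξ, π a ξ⟫_ℂ - c := by
    have e2 : ∀ y : H, ⟪ξ, π p y⟫_ℂ = ⟪ξ, y⟫_ℂ := by
      intro y
      rw [← ContinuousLinearMap.adjoint_inner_left, ← ContinuousLinearMap.star_eq_adjoint,
        ← map_star, hp, h1]
    rw [map_sub, map_smul, map_mul, map_mul, ContinuousLinearMap.sub_apply,
      ContinuousLinearMap.smul_apply, ContinuousLinearMap.mul_apply, ContinuousLinearMap.mul_apply,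
      h1, inner_sub_right, e2, inner_smul_right, inner_self_eq_norm_sq_to_K, hξ]
    simp
  rw [← e1]
  refine (norm_inner_le_norm _ _).trans ?_
  rw [hξ, one_mul]
  refine (ContinuousLinearMap.le_opNorm _ _).trans ?_
  rw [hξ, mul_one]
  exact (NonUnitalStarAlgHom.norm_apply_le π _).trans h

/-- The orbit map. -/
noncomputable def orb (π : A →⋆ₐ[ℂ] (H →L[ℂ] H)) (ξ : H) : A →ₗ[ℂ] H where
  toFun a := π a ξ
  map_add' a b := by simp
  map_smul' c a := by simp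

lemma dense (π : A →⋆ₐ[ℂ] (H →L[ℂ] H)) (hπ : Irr π) {ξ : H} (hξ : ξ ≠ 0) :
    DenseRange (orb π ξ) := by
  have := hπ (LinearMap.range (orb π ξ)).topologicalClosure
    (Submodule.isClosed_topologicalClosure _) (by
      intro a x hx
      have hm : Set.MapsTo (π a) (LinearMap.range (orb π ξ) : Set H)
          (LinearMap.range (orb π ξ) : Set H) := by
        rintro _ ⟨b, rfl⟩
        exact ⟨a * b, by simp [orb]⟩
      exact hm.closure (π a).continuous hx)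
  rcases this with h | h
  · exfalso
    have : ξ ∈ (LinearMap.range (orb π ξ)).topologicalClosure :=
      Submodule.le_topologicalClosure _ ⟨1, by simp [orb]⟩
    rw [h] at this
    exact hξ this
  · exact Submodule.dense_iff_topologicalClosure_eq_top.mpr h

lemma nsq (π : A →⋆ₐ[ℂ] (H →L[ℂ] H)) (a : A) (ξ : H) :
    ⟪ξ, π (star a * a) ξ⟫_ℂ = ((‖π a ξ‖ : ℂ)) ^ 2 := by
  rw [map_mul, map_star, ContinuousLinearMap.mul_apply, ContinuousLinearMap.star_eq_adjoint,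
    ContinuousLinearMap.adjoint_inner_right, inner_self_eq_norm_sq_to_K]
  rfl

end Q

theorem equiv {p : ℕ → A} (hp : ∀ n, star (p n) = p n)
    (h : ∀ (a : A) (ε : ℝ), 0 < ε → ∃ (c : ℂ) (n : ℕ), ‖p n * a * p n - c • p n‖ ≤ ε)
    (π : A →⋆ₐ[ℂ] (H →L[ℂ] H)) (hπ : Irr π) (σ : A →⋆ₐ[ℂ] (K →L[ℂ] K)) (hσ : Irr σ)
    {ξ : H} (hξ : ξ ≠ 0) (h1 : ∀ n, π (p n) ξ = ξ) {η : K} (hη : η ≠ 0) (h2 : ∀ n, σ (p n) η = η) :
    ∃ U : H ≃ₗᵢ[ℂ] K, ∀ a x, U (π a x) = σ a (U x) := by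
  obtain ⟨x, hx, hx1⟩ : ∃ x : H, ‖x‖ = 1 ∧ ∀ n, π (p n) x = x :=
    ⟨(‖ξ‖⁻¹ : ℂ) • ξ, norm_smul_inv_norm (𝕜 := ℂ) hξ, fun n => by rw [map_smul, h1]⟩
  obtain ⟨y, hy, hy1⟩ : ∃ y : K, ‖y‖ = 1 ∧ ∀ n, σ (p n) y = y :=
    ⟨(‖η‖⁻¹ : ℂ) • η, norm_smul_inv_norm (𝕜 := ℂ) hη, fun n => by rw [map_smul, h2]⟩
  have hx0 : x ≠ 0 := by rintro rfl; simp at hx
  have hy0 : y ≠ 0 := by rintro rfl; simp at hy
  have e1 : ∀ a, ⟪x, π a x⟫_ℂ = ⟪y, σ a y⟫_ℂ := by
    intro a
    refine eq_of_forall_dist_le fun ε hε => ?_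
    obtain ⟨c, n, hc⟩ := h a (ε / 2) (by positivity)
    have a1 := Q.near π (hp n) hc hx (hx1 n)
    have a2 := Q.near σ (hp n) hc hy (hy1 n)
    have := dist_triangle_right ⟪x, π a x⟫_ℂ ⟪y, σ a y⟫_ℂ c
    rw [dist_eq_norm _ c, dist_eq_norm _ c] at this
    linarith
  have e2 : ∀ a, ‖Q.orb σ y (LinearEquiv.refl ℂ A a)‖ = ‖Q.orb π x a‖ := by
    intro a
    have := e1 (star a * a)
    rw [Q.nsq, Q.nsq] at this
    have h3 : ‖π a x‖ ^ 2 = ‖σ a y‖ ^ 2 := by exact_mod_cast this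
    exact ((pow_left_inj₀ (norm_nonneg _) (norm_nonneg _) two_ne_zero).mp h3).symm
  have d1 := Q.dense π hπ hx0
  have d2 := Q.dense σ hσ hy0
  set U := (LinearEquiv.refl ℂ A).extendOfIsometry (Q.orb π x) (Q.orb σ y) d1 d2 e2 with hU
  have e3 : ∀ a, U (π a x) = σ a y := fun a =>
    LinearEquiv.extendOfIsometry_eq (LinearEquiv.refl ℂ A) (Q.orb π x) (Q.orb σ y) d1 d2 e2 a
  refine ⟨U, fun a z => ?_⟩
  refine d1.induction_on z (isClosed_eq (by fun_prop) (by fun_prop)) fun b => ?_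
  show U (π a (π b x)) = σ a (U (π b x))
  rw [e3, ← ContinuousLinearMap.mul_apply, ← map_mul, e3, map_mul, ContinuousLinearMap.mul_apply]

theorem unital (π : A →⋆ₙₐ[ℂ] (H →L[ℂ] H)) (h0 : π ≠ 0) (hπ : Irr π) :
    Nontrivial H ∧ ∃ ρ : A →⋆ₐ[ℂ] (H →L[ℂ] H), ∀ a, ρ a = π a := by
  have h1 : π 1 = 1 := by
    rcases hπ (LinearMap.ker ((1 - π 1 : H →L[ℂ] H) : H →ₗ[ℂ] H))
      (ContinuousLinearMap.isClosed_ker _) (by
        intro a x _
        show (1 - π 1 : H →L[ℂ] H) (π a x) = 0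
        rw [← ContinuousLinearMap.mul_apply, sub_mul, one_mul, ← map_mul, one_mul, sub_self]
        rfl) with h | h
    · exfalso
      apply h0
      ext a x
      have : π a x ∈ LinearMap.ker ((1 - π 1 : H →L[ℂ] H) : H →ₗ[ℂ] H) := by
        show (1 - π 1 : H →L[ℂ] H) (π a x) = 0
        rw [← ContinuousLinearMap.mul_apply, sub_mul, one_mul, ← map_mul, one_mul, sub_self]
        rfl
      rw [h] at this
      simpa using this
    · ext x
      have : x ∈ LinearMap.ker ((1 - π 1 : H →L[ℂ] H) : H →ₗ[ℂ] H) := by rw [h]; trivial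
      have h2 : (1 - π 1 : H →L[ℂ] H) x = 0 := this
      rw [ContinuousLinearMap.sub_apply, sub_eq_zero] at h2
      exact h2.symm
  constructor
  · by_contra hn
    rw [not_nontrivial_iff_subsingleton] at hn
    apply h0
    ext a x
    exact Subsingleton.elim _ _
  · refine ⟨{ toFun := π, map_one' := h1, map_mul' := map_mul π, map_zero' := map_zero π
              map_add' := map_add π, commutes' := fun c => ?_, map_star' := map_star π },
      fun _ => rfl⟩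
    rw [Algebra.algebraMap_eq_smul_one, map_smul, h1, Algebra.algebraMap_eq_smul_one]

theorem not_compacts (hA : ¬ FiniteDimensional ℂ A) (Φ : A →⋆ₙₐ[ℂ] (H →L[ℂ] H))
    (hi : Function.Injective Φ) : Set.range Φ ≠ {T : H →L[ℂ] H | IsCompactOperator T} := by
  intro hr
  have h1 : Φ 1 = 1 := by
    ext x
    by_cases hx : x = 0
    · simp [hx]
    have hc : IsCompactOperator (InnerProductSpace.rankOne ℂ x x) := by
      rw [InnerProductSpace.rankOne_def']
      exact (isCompactOperator_of_locallyCompactSpace_dom (innerSL ℂ x)).clm_comp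
        (ContinuousLinearMap.toSpanSingleton ℂ x)
    have hm : InnerProductSpace.rankOne ℂ x x ∈ Set.range Φ := by rw [hr]; exact hc
    obtain ⟨a, ha⟩ := hm
    have e1 : Φ 1 (Φ a x) = Φ a x := by
      rw [← ContinuousLinearMap.mul_apply, ← map_mul, one_mul]
    rw [ha, InnerProductSpace.rankOne_apply, map_smul] at e1
    exact smul_right_injective H (inner_self_ne_zero.mpr hx) e1
  have h2 : IsCompactOperator (Φ 1) := by
    have : Φ 1 ∈ Set.range Φ := ⟨1, rfl⟩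
    rw [hr] at this
    exact this
  rw [h1] at h2
  haveI : FiniteDimensional ℂ H := FiniteDimensional.of_isCompactOperator_id h2
  let L : A →ₗ[ℂ] (H →L[ℂ] H) :=
    { toFun := Φ, map_add' := map_add Φ, map_smul' := map_smul Φ }
  exact hA (FiniteDimensional.of_injective L hi)

end Vale.Agent.P070
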