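import Vale.Agent.P070.PartW

/-! Part T of P070: traces of an excising sequence tend to zero; infinite dimension. -/

namespace Vale.Agent.P070

open scoped InnerProductSpace ComplexOrder ComplexConjugate
open Vale.Agent.P104 Filter Topology

variable {B : Type*} [CStarAlgebra B]

namespace T

lemma two_le (t : Tr B) {p q s : B} (hq : IsStarProjection q) (hpq : p * q = q)
    (h1 : star s * s = p) (h2 : s * star s = p) :
    2 * (t.τ q).re ≤ (t.τ p).re + t.N (q * s * q) := by
  have qs := hq.isSelfAdjoint.star_eq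
  have qq := hq.isIdempotentElem.eq
  have a1 : t.N (s * q) = (t.τ q).re := by
    rw [Tr.N, star_mul, qs, mul_assoc, ← mul_assoc (star s), h1, hpq, qq]
  have a2 : t.N (q * s) = (t.τ q).re := by
    rw [← t.N_star, star_mul, qs, Tr.N, star_mul, star_star, qs, mul_assoc, ← mul_assoc s, h2,
      hpq, qq]
  have a3 : t.N s = (t.τ p).re := by rw [Tr.N, h1]
  have a4 := t.N_proj_add qs qq (s * q)
  have a5 := t.N_mul_proj_le qs qq ((1 - q) * s)
  have a6 := t.N_proj_add qs qq s
  rw [← mul_assoc, ← mul_assoc] at a4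
  linarith

lemma step {t : Tr B} {D : Set B} (h : Cl t D) {f : ℕ → B} (hf : Exc D f) (k : ℕ) {ε : ℝ}
    (hε : 0 < ε) : ∃ j, 2 * (t.τ (f j)).re ≤ (t.τ (f k)).re + (2 * ε) ^ 2 := by
  obtain ⟨v, -, v1, -, v3⟩ := h.half _ (hf.mem k) (hf.proj k)
  obtain ⟨c, k', hc⟩ := hf.exc v ε hε
  obtain ⟨β, hβ, hβc⟩ : ∃ β : ℂ, ‖β‖ = 1 ∧ c + β * conj c = 0 := by
    by_cases h0 : c = 0
    · exact ⟨1, by simp, by simp [h0]⟩
    · have h1 : conj c ≠ 0 := by simpa using h0
      refine ⟨-c / conj c, by simp [h0], by field_simp; ring⟩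
  have hββ : β * conj β = 1 := by rw [Complex.mul_conj, Complex.normSq_eq_norm_sq, hβ]; simp
  have hββ' : conj β * β = 1 := by rw [mul_comm, hββ]
  have v2 : star v * star v = 0 := by rw [← star_mul, v1, star_zero]
  set j := max k k' with hj
  set q := f j with hq
  have pq := hf.proj j
  have qs : star q = q := pq.isSelfAdjoint.star_eq
  have qq : q * q = q := pq.isIdempotentElem.eq
  have d1 : f k' * q = q := hf.dec k' j (le_max_right _ _)
  have d2 : q * f k' = q := W.flip pq (hf.proj k') d1
  have n1 : ‖q * v * q - c • q‖ ≤ ε := by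
    have e : q * v * q - c • q = q * (f k' * v * f k' - c • f k') * q := by
      rw [mul_sub, sub_mul, mul_smul_comm, smul_mul_assoc, d2, qq, ← mul_assoc, ← mul_assoc, d2,
        mul_assoc (q * v), d1]
    rw [e]
    calc _ ≤ ‖q‖ * ‖f k' * v * f k' - c • f k'‖ * ‖q‖ := norm_mul₃_le
      _ ≤ 1 * ε * 1 := by gcongr <;> exact pq.norm_le
      _ = ε := by ring
  have n2 : ‖q * star v * q - conj c • q‖ ≤ ε := by
    rw [← norm_star]
    simpa [star_mul, qs, mul_assoc] using n1
  have n3 : ‖q * (v + β • star v) * q‖ ≤ 2 * ε := by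
    have e : q * (v + β • star v) * q =
        (q * v * q - c • q) + β • (q * star v * q - conj c • q) + (c + β * conj c) • q := by
      rw [mul_add, add_mul, mul_smul_comm, smul_mul_assoc, smul_sub, add_smul, mul_smul]; abel
    rw [e, hβc, zero_smul, add_zero]
    refine (norm_add_le _ _).trans ?_
    rw [norm_smul, hβ]; linarith
  have key := two_le t (p := f k) (s := v + β • star v) pq (hf.dec k j (le_max_left _ _))
    (by
      simp only [star_add, star_smul, star_star, add_mul, mul_add, smul_mul_assoc, mul_smul_comm,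
        v1, v2, smul_zero, add_zero, zero_add, smul_smul, Complex.star_def, hββ, hββ', one_smul]
      exact v3)
    (by
      simp only [star_add, star_smul, star_star, add_mul, mul_add, smul_mul_assoc, mul_smul_comm,
        v1, v2, smul_zero, add_zero, zero_add, smul_smul, Complex.star_def, hββ, hββ', one_smul]
      rw [add_comm]; exact v3)
  refine ⟨j, key.trans ?_⟩
  have := (h.le (q * (v + β • star v) * q)).trans (pow_le_pow_left₀ (norm_nonneg _) n3 2)
  linarith

end T

theorem tau {t : Tr B} {D : Set B} (h : Cl t D) {f : ℕ → B} (hf : Exc D f) :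
    Tendsto (fun k => (t.τ (f k)).re) atTop (𝓝 0) := by
  have anti : Antitone fun k => (t.τ (f k)).re := fun j k hjk =>
    W.tr_mono t (hf.proj k) (hf.proj j) (hf.dec j k hjk)
  have nn : ∀ k, 0 ≤ (t.τ (f k)).re := fun k => W.tr_nonneg t (hf.proj k)
  have bdd : BddBelow (Set.range fun k => (t.τ (f k)).re) := ⟨0, by rintro _ ⟨k, rfl⟩; exact nn k⟩
  have lim := tendsto_atTop_ciInf anti bdd
  set L := ⨅ k, (t.τ (f k)).re with hL
  have L0 : 0 ≤ L := le_ciInf nn
  have L1 : ∀ k, 2 * L ≤ (t.τ (f k)).re := by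
    intro k
    refine le_of_forall_pos_le_add fun δ hδ => ?_
    obtain ⟨j, hj⟩ := T.step h hf k (ε := Real.sqrt δ / 2) (by positivity)
    have e : (2 * (Real.sqrt δ / 2)) ^ 2 = δ := by
      rw [mul_div_cancel₀ _ (two_ne_zero), Real.sq_sqrt hδ.le]
    have := ciInf_le bdd j
    rw [e] at hj
    linarith
  have L2 : 2 * L ≤ L := le_ciInf L1
  have : L = 0 := by linarith
  rwa [this] at lim

theorem inf_dim {t : Tr B} {D : Set B} (h : Cl t D) : ¬ FiniteDimensional ℂ B := by
  intro hfin
  have st : ∀ p : {p : B // p ∈ D ∧ IsStarProjection p ∧ p ≠ 0},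
      ∃ p' : {p : B // p ∈ D ∧ IsStarProjection p ∧ p ≠ 0}, p.1 * p'.1 = p'.1 ∧ p'.1 ≠ p.1 := by
    rintro ⟨p, hp, pp, p0⟩
    obtain ⟨v, hv, v1, v2, v3⟩ := h.half p hp pp
    have v0 : v ≠ 0 := by rintro rfl; exact p0 (by simpa using v3.symm)
    have w2 : star v * v * star v = star v := by
      have := congrArg star v2
      simpa [star_mul, mul_assoc] using this
    have pe : IsStarProjection (star v * v) := by
      refine ⟨?_, IsSelfAdjoint.star_mul_self v⟩
      show star v * v * (star v * v) = star v * v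
      rw [← mul_assoc, w2]
    refine ⟨⟨star v * v, h.mul _ (h.st v hv) _ hv, pe,
      fun h0 => v0 ((CStarRing.star_mul_self_eq_zero_iff _).1 h0)⟩, ?_, ?_⟩
    · show p * (star v * v) = star v * v
      have : star v * star v = 0 := by rw [← star_mul, v1, star_zero]
      rw [← v3, add_mul, pe.isIdempotentElem.eq, mul_assoc v, ← mul_assoc (star v), this]
      simp
    · show star v * v ≠ p
      intro e
      rw [← e, add_eq_left] at v3
      exact v0 ((CStarRing.mul_star_self_eq_zero_iff _).1 v3)
  choose g hg1 hg2 using st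
  have one0 : (1 : B) ≠ 0 := by
    intro e
    have := h.tone
    rw [e, map_zero] at this
    exact zero_ne_one this
  let p : ℕ → {p : B // p ∈ D ∧ IsStarProjection p ∧ p ≠ 0} :=
    fun n => g^[n] ⟨1, h.one, IsStarProjection.one B, one0⟩
  have ps : ∀ n, p (n + 1) = g (p n) := fun n => Function.iterate_succ_apply' _ _ _
  let K : ℕ → Submodule ℂ B := fun n => LinearMap.ker (LinearMap.mulLeft ℂ (p n).1)
  have mono : StrictMono K := by
    refine strictMono_nat_of_lt_succ fun n => ?_
    have a := hg1 (p n)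
    have b := hg2 (p n)
    rw [← ps] at a b
    have a' := W.flip (p (n + 1)).2.2.1 (p n).2.2.1 a
    refine lt_of_le_of_ne ?_ ?_
    · intro x hx
      simp only [K, LinearMap.mem_ker, LinearMap.mulLeft_apply] at hx ⊢
      rw [← a', mul_assoc, hx, mul_zero]
    · intro e
      have m : (p n).1 - (p (n + 1)).1 ∈ K (n + 1) := by
        simp only [K, LinearMap.mem_ker, LinearMap.mulLeft_apply]
        rw [mul_sub, a', (p (n + 1)).2.2.1.isIdempotentElem.eq, sub_self]
      rw [← e] at m
      simp only [K, LinearMap.mem_ker, LinearMap.mulLeft_apply] at m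
      rw [mul_sub, a, (p n).2.2.1.isIdempotentElem.eq, sub_eq_zero] at m
      exact b m.symm
  exact (not_strictMono_of_wellFoundedGT K) mono

end Vale.Agent.P070
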