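import Vale.Agent.P070.Defs

namespace Vale.Agent.P070

open scoped InnerProductSpace ComplexOrder ComplexConjugate
open Vale.Agent.P104 Filter Topology

namespace W

variable {B : Type*} [CStarAlgebra B]

lemma right_of {v p : B} (hp : IsStarProjection p) (h : star v * v = p) : v * p = v := by
  have h1 := hp.isIdempotentElem.eq
  have h2 := hp.isSelfAdjoint.star_eq
  have : star (v - v * p) * (v - v * p) = 0 := by
    rw [star_sub, star_mul, h2]
    calc (star v - p * star v) * (v - v * p)
        = star v * v - star v * v * p - p * (star v * v) + p * (star v * v) * p := by noncomm_ring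
      _ = 0 := by rw [h, h1, h1]; abel
  exact (sub_eq_zero.mp ((CStarRing.star_mul_self_eq_zero_iff _).mp this)).symm

lemma left_of {v q : B} (hq : IsStarProjection q) (h : v * star v = q) : q * v = v := by
  have := right_of (v := star v) hq (by rw [star_star, h])
  have h3 := congrArg star this
  rwa [star_mul, star_star, hq.isSelfAdjoint.star_eq] at h3

lemma flip {p q : B} (hp : IsStarProjection p) (hq : IsStarProjection q) (h : q * p = p) :
    p * q = p := by
  have h3 := congrArg star h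
  rwa [star_mul, hp.isSelfAdjoint.star_eq, hq.isSelfAdjoint.star_eq] at h3

lemma proj_sub {p q : B} (hp : IsStarProjection p) (hq : IsStarProjection q) (h : q * p = p) :
    IsStarProjection (q - p) := by
  refine ⟨?_, hq.isSelfAdjoint.sub hp.isSelfAdjoint⟩
  show (q - p) * (q - p) = q - p
  rw [sub_mul, mul_sub, mul_sub, h, flip hp hq h, hp.isIdempotentElem.eq, hq.isIdempotentElem.eq]
  abel

lemma proj_range {v p : B} (hp : IsStarProjection p) (h : star v * v = p) :
    IsStarProjection (v * star v) := by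
  refine ⟨?_, ?_⟩
  · show v * star v * (v * star v) = v * star v
    calc v * star v * (v * star v) = v * (star v * v) * star v := by noncomm_ring
      _ = v * star v := by rw [h, right_of hp h]
  · show star (v * star v) = v * star v
    rw [star_mul, star_star]

lemma add_pi {a b P P' Q Q' : B} (hP : IsStarProjection P) (hP' : IsStarProjection P')
    (hQ : IsStarProjection Q) (hQ' : IsStarProjection Q') (h1 : star a * a = P)
    (h2 : a * star a = Q) (h3 : star b * b = P') (h4 : b * star b = Q') (o1 : P * P' = 0)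
    (o2 : Q * Q' = 0) :
    star (a + b) * (a + b) = P + P' ∧ (a + b) * star (a + b) = Q + Q' := by
  have c1 : star a * b = 0 := by
    have e1 : star a * Q = star a := right_of hQ (by rw [star_star, h2])
    calc star a * b = star a * Q * (Q' * b) := by rw [e1, left_of hQ' h4]
      _ = star a * (Q * Q') * b := by noncomm_ring
      _ = 0 := by rw [o2]; simp
  have c2 : a * star b = 0 := by
    have e1 : P' * star b = star b := left_of hP' (by rw [star_star, h3])
    calc a * star b = a * P * (P' * star b) := by rw [e1, right_of hP h1]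
      _ = a * (P * P') * star b := by noncomm_ring
      _ = 0 := by rw [o1]; simp
  have c3 : star b * a = 0 := by
    have := congrArg star c1
    rwa [star_mul, star_star, star_zero] at this
  have c4 : b * star a = 0 := by
    have := congrArg star c2
    rwa [star_mul, star_star, star_zero] at this
  constructor
  · rw [star_add, add_mul, mul_add, mul_add, c1, c3, h1, h3]; abel
  · rw [star_add, add_mul, mul_add, mul_add, c2, c4, h2, h4]; abel

variable {s : Tr B} {D : Set B}

lemma tr_nonneg (s : Tr B) {p : B} (hp : IsStarProjection p) : 0 ≤ (s.τ p).re := by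
  rw [← s.N_proj hp.isSelfAdjoint.star_eq hp.isIdempotentElem.eq]; exact s.N_nonneg p

lemma tr_mono (s : Tr B) {p q : B} (hp : IsStarProjection p) (hq : IsStarProjection q)
    (h : q * p = p) : (s.τ p).re ≤ (s.τ q).re := by
  have := tr_nonneg s (proj_sub hp hq h)
  rw [map_sub, Complex.sub_re] at this
  linarith

lemma add_mem (h : Cl s D) {x y : B} (hx : x ∈ D) (hy : y ∈ D) : x + y ∈ D := by
  have := h.sub x hx _ (h.sub _ (h.sub 1 h.one 1 h.one) y hy)
  simpa using this

lemma eqv (h : Cl s D) {p q : B} (hpD : p ∈ D) (hqD : q ∈ D) (hp : IsStarProjection p)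
    (hq : IsStarProjection q) (e : (s.τ p).re = (s.τ q).re) :
    ∃ v : B, star v * v = p ∧ v * star v = q := by
  obtain ⟨v, -, h1, h2⟩ := h.cmp p hpD q hqD hp hq e.le
  refine ⟨v, h1, ?_⟩
  have hr := proj_range hp h1
  have h3 : q * (v * star v) = v * star v := by rw [← mul_assoc, h2]
  have h4 := proj_sub hr hq h3
  have h5 : s.N (q - v * star v) = 0 := by
    rw [s.N_proj h4.isSelfAdjoint.star_eq h4.isIdempotentElem.eq, map_sub, Complex.sub_re,
      s.comm v, h1, e, sub_self]
  exact (sub_eq_zero.mp (h.faith _ h5)).symm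

lemma between (h : Cl s D) {p q r : B} (hpD : p ∈ D) (hqD : q ∈ D) (hrD : r ∈ D)
    (hp : IsStarProjection p) (hq : IsStarProjection q) (hr : IsStarProjection r)
    (hpq : q * p = p) (e1 : (s.τ p).re ≤ (s.τ r).re) (e2 : (s.τ r).re ≤ (s.τ q).re) :
    ∃ p2 ∈ D, IsStarProjection p2 ∧ p2 * p = p ∧ q * p2 = p2 ∧ (s.τ p2).re = (s.τ r).re := by
  obtain ⟨v, hv, h1, h2⟩ := h.cmp p hpD r hrD hp hr e1
  have hv1 := proj_range hp h1
  have h3 : r * (v * star v) = v * star v := by rw [← mul_assoc, h2]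
  have h4 := proj_sub hv1 hr h3
  have h5 := proj_sub hp hq hpq
  have t1 : (s.τ (r - v * star v)).re = (s.τ r).re - (s.τ p).re := by
    rw [map_sub, Complex.sub_re, s.comm v, h1]
  obtain ⟨u, hu, g1, g2⟩ := h.cmp _ (h.sub r hrD _ (h.mul v hv _ (h.st v hv))) _
    (h.sub q hqD p hpD) h4 h5 (by rw [t1, map_sub, Complex.sub_re]; linarith)
  have hu1 := proj_range h4 g1
  have g3 : (q - p) * (u * star u) = u * star u := by rw [← mul_assoc, g2]
  have g4 : p * (u * star u) = 0 := by
    rw [← g3, ← mul_assoc, mul_sub, flip hp hq hpq, hp.isIdempotentElem.eq, sub_self, zero_mul]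
  have g5 : u * star u * p = 0 := by
    have := congrArg star g4
    rwa [star_mul, hp.isSelfAdjoint.star_eq, hu1.isSelfAdjoint.star_eq, star_zero] at this
  refine ⟨p + u * star u, add_mem h hpD (h.mul u hu _ (h.st u hu)), hp.add hu1 g4, ?_, ?_, ?_⟩
  · rw [add_mul, g5, hp.isIdempotentElem.eq, add_zero]
  · rw [sub_mul, g4, sub_zero] at g3
    rw [mul_add, hpq, g3]
  · rw [map_add, Complex.add_re, s.comm u, g1, t1]; ring

/-- One stage of the back and forth construction. -/
structure St (D : Set B) (e f : ℕ → B) where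
  p : B
  q : B
  U : B
  n : ℕ
  m : ℕ
  pD : p ∈ D
  qD : q ∈ D
  hp : IsStarProjection p
  hq : IsStarProjection q
  hU : U ∈ unitary B
  int : U * p = q * U
  he : p * e n = e n
  hf : q * f m = f m

lemma cnj {U p q : B} (hU : U ∈ unitary B) (int : U * p = q * U) : U * p * star U = q := by
  rw [int, mul_assoc, Unitary.mul_star_self_of_mem hU, mul_one]

lemma step (h : Cl s D) {e f : ℕ → B} (he : Dec D e) (hf : Dec D f)
    (he0 : Tendsto (fun k => (s.τ (e k)).re) atTop (𝓝 0))
    (hf0 : Tendsto (fun k => (s.τ (f k)).re) atTop (𝓝 0)) (k : ℕ) (S : St D e f) :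
    ∃ T : St D e f, e k * T.p = T.p ∧ f k * T.q = T.q ∧ S.p * T.p = T.p ∧
      T.U * (1 - S.p) = S.U * (1 - S.p) := by
  obtain ⟨p, q, U, n, m, pD, qD, hp, hq, hU, int, hpe, hqf⟩ := S
  have pos : ∀ {g : ℕ → B}, Dec D g → ∀ j, 0 < (s.τ (g j)).re := by
    intro g hg j
    refine lt_of_le_of_ne (tr_nonneg s (hg.proj j)) fun h0 => hg.ne j (h.faith _ ?_)
    rw [s.N_proj (hg.proj j).isSelfAdjoint.star_eq (hg.proj j).isIdempotentElem.eq, ← h0]
  set n1 := max n k with hn1
  obtain ⟨m1, hm1, hm2⟩ := ((hf0.eventually (ge_mem_nhds (pos he n1))).and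
    (eventually_ge_atTop (max m k))).exists
  obtain ⟨n2, hn2, hn3⟩ := ((he0.eventually (ge_mem_nhds (pos hf m1))).and
    (eventually_ge_atTop n1)).exists
  obtain ⟨p2, p2D, hp2, a1, a2, a3⟩ := between h (he.mem n2) (he.mem n1) (hf.mem m1) (he.proj n2)
    (he.proj n1) (hf.proj m1) (he.dec _ _ hn3) hn2 hm1
  set q2 := f m1 with hq2def
  have hq2 : IsStarProjection q2 := hf.proj m1
  have b1 : p * p2 = p2 := by
    rw [← a2, ← he.dec n n1 (le_max_left _ _), mul_assoc, ← mul_assoc p, hpe]
  have b2 : q * q2 = q2 := by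
    rw [hq2def, ← hf.dec m m1 (le_trans (le_max_left _ _) hm2), ← mul_assoc, hqf]
  have b3 : e k * p2 = p2 := by rw [← a2, ← mul_assoc, he.dec k n1 (le_max_right _ _)]
  have b4 : f k * q2 = q2 := hf.dec k m1 (le_trans (le_max_right _ _) hm2)
  have tpq : (s.τ p).re = (s.τ q).re := by
    rw [← cnj hU int, s.comm, ← mul_assoc, Unitary.star_mul_self_of_mem hU, one_mul]
  have hd1 := proj_sub hp2 hp b1
  have hd2 := proj_sub hq2 hq b2
  obtain ⟨v, v1, v2⟩ := eqv h (h.sub p pD p2 p2D) (h.sub q qD q2 (hf.mem m1)) hd1 hd2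
    (by rw [map_sub, map_sub, Complex.sub_re, Complex.sub_re, tpq, a3])
  obtain ⟨u, u1, u2⟩ := eqv h p2D (hf.mem m1) hp2 hq2 a3
  have o1 : (p - p2) * p2 = 0 := by rw [sub_mul, b1, hp2.isIdempotentElem.eq, sub_self]
  have o2 : (q - q2) * q2 = 0 := by rw [sub_mul, b2, hq2.isIdempotentElem.eq, sub_self]
  obtain ⟨w1, w2⟩ := add_pi hd1 hp2 hd2 hq2 v1 v2 u1 u2 o1 o2
  rw [sub_add_cancel] at w1 w2
  have c1 : star (U * (1 - p)) * (U * (1 - p)) = 1 - p := by
    rw [star_mul, hp.one_sub.isSelfAdjoint.star_eq, mul_assoc, ← mul_assoc (star U),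
      Unitary.star_mul_self_of_mem hU, one_mul, hp.one_sub.isIdempotentElem.eq]
  have c2 : U * (1 - p) * star (U * (1 - p)) = 1 - q := by
    rw [star_mul, hp.one_sub.isSelfAdjoint.star_eq, mul_assoc, ← mul_assoc (1 - p),
      hp.one_sub.isIdempotentElem.eq, sub_mul, one_mul, mul_sub, ← mul_assoc, cnj hU int,
      Unitary.mul_star_self_of_mem hU]
  obtain ⟨z1, z2⟩ := add_pi hp.one_sub hp hq.one_sub hq c1 c2 w1 w2
    (by rw [sub_mul, one_mul, hp.isIdempotentElem.eq, sub_self])
    (by rw [sub_mul, one_mul, hq.isIdempotentElem.eq, sub_self])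
  rw [sub_add_cancel] at z1 z2
  have d1 : U * (1 - p) * p2 = 0 := by rw [mul_assoc, sub_mul, one_mul, b1, sub_self, mul_zero]
  have d2 : v * p2 = 0 := by rw [← right_of hd1 v1, mul_assoc, o1, mul_zero]
  have d3 : q2 * (U * (1 - p)) = 0 := by
    rw [← left_of hq.one_sub c2, ← mul_assoc, mul_sub q2, mul_one, flip hq2 hq b2, sub_self,
      zero_mul]
  have d4 : q2 * v = 0 := by
    rw [← left_of hd2 v2, ← mul_assoc, mul_sub q2, flip hq2 hq b2, hq2.isIdempotentElem.eq,
      sub_self, zero_mul]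
  refine ⟨⟨p2, q2, U * (1 - p) + (v + u), n2, m1, p2D, hf.mem m1, hp2, hq2, ⟨z1, z2⟩, ?_, a1,
    hq2.isIdempotentElem.eq⟩, b3, b4, b1, ?_⟩
  · rw [add_mul, add_mul, mul_add, mul_add, d1, d2, d3, d4, right_of hp2 u1, left_of hq2 u2]
  · show (U * (1 - p) + (v + u)) * (1 - p) = U * (1 - p)
    rw [add_mul, mul_assoc, hp.one_sub.isIdempotentElem.eq, mul_sub (v + u), mul_one,
      right_of hp w1, sub_self, add_zero]

lemma compl {R : Type*} [Ring R] {a b : R} (h : a * b = a) : (1 - a) * (1 - b) = 1 - b := by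
  rw [sub_mul, one_mul, mul_sub, mul_one, h, sub_self, sub_zero]

end W

variable {A B : Type*} [CStarAlgebra A] [CStarAlgebra B]

theorem link {t : Tr A} (hf : ∀ x, t.N x = 0 → x = 0) (hc : Cpl t) (ι : B →⋆ₐ[ℂ] A) {D : Set B}
    (h : Cl (t.comap ι) D) {e f : ℕ → B} (he : Dec D e) (hf' : Dec D f)
    (he0 : Tendsto (fun k => (t.τ (ι (e k))).re) atTop (𝓝 0))
    (hf0 : Tendsto (fun k => (t.τ (ι (f k))).re) atTop (𝓝 0)) : ∃ w, Link ι e f w := by
  choose nx h1 h2 h3 h4 using W.step h he hf' he0 hf0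
  let S0 : W.St D e f := ⟨1, 1, 1, 0, 0, h.one, h.one, IsStarProjection.one B,
    IsStarProjection.one B, one_mem _, rfl, one_mul _, one_mul _⟩
  let S : ℕ → W.St D e f := fun k => Nat.rec S0 (fun k x => nx k x) k
  have g1 : ∀ k, e k * (S (k + 1)).p = (S (k + 1)).p := fun k => h1 k (S k)
  have g2 : ∀ k, f k * (S (k + 1)).q = (S (k + 1)).q := fun k => h2 k (S k)
  have g3 : ∀ k, (S k).p * (S (k + 1)).p = (S (k + 1)).p := fun k => h3 k (S k)
  have g4 : ∀ k, (S (k + 1)).U * (1 - (S k).p) = (S k).U * (1 - (S k).p) := fun k => h4 k (S k)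
  clear_value S
  have g5 : ∀ k j, k ≤ j → (S k).p * (S j).p = (S j).p ∧
      (S j).U * (1 - (S k).p) = (S k).U * (1 - (S k).p) := by
    intro k j hkj
    induction j, hkj using Nat.le_induction with
    | base => exact ⟨(S k).hp.isIdempotentElem.eq, rfl⟩
    | succ j _ ih =>
      refine ⟨by rw [← g3 j, ← mul_assoc, ih.1], ?_⟩
      have := W.compl (W.flip (S j).hp (S k).hp ih.1)
      rw [← ih.2, ← this, ← mul_assoc, g4 j, mul_assoc]
  have hun : ∀ k, ι (S k).U ∈ unitary A := fun k => Unitary.map_mem ι (S k).hU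
  have hpr : ∀ {x : B}, IsStarProjection x → IsStarProjection (ι x) := fun hx => hx.map ι
  obtain ⟨w, hw, hlim⟩ := hc (fun k => ι (S k).U) hun (by
    intro ε hε
    obtain ⟨k, hk⟩ := (he0.eventually (ge_mem_nhds (show 0 < ε / 4 by positivity))).exists
    refine ⟨k + 1, fun m hm n hn => ?_⟩
    set p := (S (k + 1)).p with hp
    have e1 : (S m).U - (S n).U = (S m).U * p + -((S n).U * p) := by
      have a := (g5 _ _ hm).2
      have b := (g5 _ _ hn).2
      rw [← b, mul_sub, mul_sub, mul_one, mul_one] at a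
      rw [← hp] at a
      calc (S m).U - (S n).U = ((S m).U - (S m).U * p) - ((S n).U - (S n).U * p) +
          ((S m).U * p + -((S n).U * p)) := by abel
        _ = _ := by rw [a, sub_self, zero_add]
    have e2 : t.N (ι p) ≤ ε / 4 := by
      have hp' := hpr (S (k + 1)).hp
      rw [t.N_proj hp'.isSelfAdjoint.star_eq hp'.isIdempotentElem.eq]
      refine le_trans (W.tr_mono t hp' (hpr (he.proj k)) ?_) hk
      rw [← map_mul, g1 k]
    show t.N (ι (S m).U - ι (S n).U) ≤ ε
    rw [← map_sub, e1, map_add, map_neg, map_mul, map_mul]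
    have := t.N_add_le (ι (S m).U * ι p) (-(ι (S n).U * ι p))
    rw [t.N_neg, t.N_unitary_mul (hun m), t.N_unitary_mul (hun n)] at this
    linarith)
  have k1 : ∀ k, w * (1 - ι (S k).p) = ι ((S k).U * (1 - (S k).p)) := by
    intro k
    have hp' := (hpr (S k).hp).one_sub
    have : t.N (ι ((S k).U * (1 - (S k).p)) - w * (1 - ι (S k).p)) ≤ 0 := by
      refine ge_of_tendsto hlim ((eventually_ge_atTop k).mono fun n hn => ?_)
      rw [← (g5 _ _ hn).2, map_mul, map_sub, map_one, ← sub_mul]
      exact t.N_mul_proj_le hp'.isSelfAdjoint.star_eq hp'.isIdempotentElem.eq _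
    exact (sub_eq_zero.mp (hf _ (le_antisymm this (t.N_nonneg _)))).symm
  have k2 : ∀ k, w * ι (S k).p = ι (S k).q * w := by
    intro k
    have hp' := (hpr (S k).hp).one_sub
    have a : w * (1 - ι (S k).p) * star (w * (1 - ι (S k).p)) = 1 - ι (S k).q := by
      rw [k1 k, ← map_star, ← map_mul, star_mul, (S k).hp.one_sub.isSelfAdjoint.star_eq,
        mul_assoc, ← mul_assoc (1 - (S k).p), (S k).hp.one_sub.isIdempotentElem.eq, sub_mul,
        one_mul, mul_sub, ← mul_assoc, W.cnj (S k).hU (S k).int,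
        Unitary.mul_star_self_of_mem (S k).hU, map_sub, map_one]
    rw [star_mul, hp'.isSelfAdjoint.star_eq, mul_assoc, ← mul_assoc (1 - ι (S k).p),
      hp'.isIdempotentElem.eq] at a
    have b := congrArg (· * w) a
    simp only [mul_assoc, Unitary.star_mul_self_of_mem hw, mul_one] at b
    rw [mul_sub, sub_mul, mul_one, one_mul] at b
    exact sub_right_injective b
  have k3 : ∀ k, star w * ι (S k).q = ι (S k).p * star w := by
    intro k
    have := congrArg star (k2 k)
    rw [star_mul, star_mul, (hpr (S k).hp).isSelfAdjoint.star_eq,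
      (hpr (S k).hq).isSelfAdjoint.star_eq] at this
    exact this.symm
  refine ⟨w, hw, fun n => ?_, fun m => ?_, fun m => ?_, fun n => ?_⟩
  · refine ⟨(S (n + 1)).U * (1 - (S (n + 1)).p) * (1 - e n), ?_⟩
    have a := W.compl (W.flip (S (n + 1)).hp (he.proj n) (g1 n))
    have b := congrArg ι a
    rw [map_mul, map_sub, map_sub, map_one] at b
    rw [map_mul, ← k1, map_sub, map_one, mul_assoc, b]
  · refine ⟨star ((S (m + 1)).U * (1 - (S (m + 1)).p)) * (1 - f m), ?_⟩
    have a := W.compl (W.flip (S (m + 1)).hq (hf'.proj m) (g2 m))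
    have b := congrArg ι a
    rw [map_mul, map_sub, map_sub, map_one] at b
    rw [map_mul, map_star, ← k1, map_sub, map_one, star_mul,
      (hpr (S (m + 1)).hp).one_sub.isSelfAdjoint.star_eq, sub_mul, one_mul, ← k3,
      ← mul_one_sub, mul_assoc, b]
  · refine ⟨(S (m + 1)).n, ?_⟩
    have a := congrArg ι (S (m + 1)).he
    have b := congrArg ι (g2 m)
    rw [map_mul] at a b
    rw [← a, ← mul_assoc, ← mul_assoc, mul_assoc _ w, k2, ← mul_assoc, b]
  · refine ⟨(S (n + 1)).m, ?_⟩
    have a := congrArg ι (S (n + 1)).hf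
    have b := congrArg ι (g1 n)
    rw [map_mul] at a b
    rw [← a, ← mul_assoc, ← mul_assoc, mul_assoc _ (star w), k3, ← mul_assoc, b]

end Vale.Agent.P070
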