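import Vale.Agent.P070.Defs

/-! Part Z of P070: the maximal family and the algebra. -/

namespace Vale.Agent.P070

open scoped InnerProductSpace ComplexOrder ComplexConjugate
open Vale.Agent.P104 Filter Topology

lemma Orth.symm {B : Type*} [CStarAlgebra B] {D : Set B} {f g : ℕ → B} (hf : Dec D f)
    (hg : Dec D g) (h : Orth f g) : Orth g f := fun b ε hε => by
  obtain ⟨k, hk⟩ := h (star b) ε hε
  refine ⟨k, ?_⟩
  rw [← norm_star, star_mul, star_mul, (hf.proj k).isSelfAdjoint.star_eq,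
    (hg.proj k).isSelfAdjoint.star_eq, ← mul_assoc]
  exact hk

lemma exists_family {B : Type*} [CStarAlgebra B] {D : Set B} {e : ℕ → B} (he : Exc D e) :
    ∃ I : Set (ℕ → B), (∀ f ∈ I, Exc D f) ∧ (∀ f ∈ I, ∀ g ∈ I, f ≠ g → Orth f g) ∧ e ∈ I ∧
      ∀ f, Exc D f → f ∉ I → ∃ g ∈ I, ¬ Orth g f := by
  let S : Set (Set (ℕ → B)) :=
    {I | (∀ f ∈ I, Exc D f) ∧ ∀ f ∈ I, ∀ g ∈ I, f ≠ g → Orth f g}
  obtain ⟨I, h1, h2⟩ := zorn_subset_nonempty S (fun c hc hch _ => by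
    refine ⟨⋃₀ c, ⟨?_, ?_⟩, fun s hs => Set.subset_sUnion_of_mem hs⟩
    · rintro f ⟨s, hs, hf⟩
      exact (hc hs).1 f hf
    · rintro f ⟨s, hs, hf⟩ g ⟨s', hs', hg⟩ hne
      rcases hch.total hs hs' with h | h
      · exact (hc hs').2 f (h hf) g hg hne
      · exact (hc hs).2 f hf g (h hg) hne) {e} (by
    refine ⟨?_, ?_⟩
    · rintro f rfl; exact he
    · rintro f rfl g rfl hne; exact absurd rfl hne)
  refine ⟨I, h2.prop.1, h2.prop.2, h1 rfl, fun f hf hI => ?_⟩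
  by_contra hn
  push Not at hn
  refine hI (h2.le_of_ge (y := insert f I) ⟨?_, ?_⟩ (Set.subset_insert _ _) (Set.mem_insert _ _))
  · rintro g (rfl | hg)
    · exact hf
    · exact h2.prop.1 g hg
  · rintro g (rfl | hg) g' (rfl | hg') hne
    · exact absurd rfl hne
    · exact (hn g' hg').symm (h2.prop.1 g' hg').toDec hf.toDec
    · exact hn g hg
    · exact h2.prop.2 g hg g' hg' hne

lemma link_one {A B : Type*} [CStarAlgebra A] [CStarAlgebra B] (ι : B →⋆ₐ[ℂ] A) {D : Set B}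
    {e : ℕ → B} (he : Dec D e) : Link ι e e 1 := by
  have h : ∀ n, ι (e n) * ι (e n) = ι (e n) := fun n => by rw [← map_mul, he.dec n n le_rfl]
  refine ⟨one_mem _, fun n => ⟨1 - e n, by simp⟩, fun n => ⟨1 - e n, by simp⟩,
    fun n => ⟨n, by simp [h]⟩, fun n => ⟨n, by simp [h]⟩⟩

theorem data {M B : Type} [CStarAlgebra M] [CStarAlgebra B] (ι : B →⋆ₐ[ℂ] M)
    (hi : Function.Injective ι) {D : Set B} {e : ℕ → B} (he : Exc D e)
    (hl : ∀ f, Exc D f → ∃ w, Link ι e f w) :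
    ∃ (A : Type) (_ : CStarAlgebra A) (j : B →⋆ₐ[ℂ] A) (I : Set (ℕ → B)) (w : (ℕ → B) → A),
      Function.Injective j ∧ Data j D I e w := by
  classical
  obtain ⟨I, h1, h2, h3, h4⟩ := exists_family he
  have hl' : ∀ f, ∃ w : M, (f = e → w = 1) ∧ (f ∈ I → Link ι e f w) ∧ (f ∉ I → w = 1) := by
    intro f
    by_cases hf : f = e
    · subst hf
      exact ⟨1, fun _ => rfl, fun _ => link_one ι he.toDec, fun _ => rfl⟩
    · by_cases hI : f ∈ I
      · obtain ⟨w, hw⟩ := hl f (h1 f hI)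
        exact ⟨w, fun h => absurd h hf, fun _ => hw, fun h => absurd hI h⟩
      · exact ⟨1, fun _ => rfl, fun h => absurd h hI, fun _ => rfl⟩
  choose w w1 w2 w3 using hl'
  let A0 : StarSubalgebra ℂ M := StarAlgebra.adjoin ℂ (Set.range ι ∪ Set.range w)
  let A : StarSubalgebra ℂ M := A0.topologicalClosure
  have hA : IsClosed (A : Set M) := A0.isClosed_topologicalClosure
  have m1 : ∀ b, ι b ∈ A := fun b =>
    A0.le_topologicalClosure (StarAlgebra.subset_adjoin _ _ (Or.inl ⟨b, rfl⟩))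
  have m2 : ∀ f, w f ∈ A := fun f =>
    A0.le_topologicalClosure (StarAlgebra.subset_adjoin _ _ (Or.inr ⟨f, rfl⟩))
  let j : B →⋆ₐ[ℂ] A := ι.codRestrict A m1
  have hj : ∀ b, (j b : M) = ι b := fun _ => rfl
  refine ⟨A, inferInstance, j, I, fun f => ⟨w f, m2 f⟩, fun x y h => hi ?_, h1, h2, h4, h3,
    Subtype.ext (w1 e rfl), fun f hf => ?_, fun C hC c1 c2 a => ?_⟩
  · rw [← hj, ← hj, h]
  · have := w2 f hf
    refine ⟨⟨Subtype.ext this.unit.1, Subtype.ext this.unit.2⟩, fun n => ?_, fun n => ?_,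
      fun n => ?_, fun n => ?_⟩
    · obtain ⟨b, hb⟩ := this.left n
      exact ⟨b, Subtype.ext hb⟩
    · obtain ⟨b, hb⟩ := this.right n
      exact ⟨b, Subtype.ext hb⟩
    · obtain ⟨b, hb⟩ := this.fwd n
      exact ⟨b, Subtype.ext hb⟩
    · obtain ⟨b, hb⟩ := this.bwd n
      exact ⟨b, Subtype.ext hb⟩
  · have hc : IsClosed ((C.map A.subtype : StarSubalgebra ℂ M) : Set M) := by
      rw [StarSubalgebra.coe_map]
      exact hA.isClosedEmbedding_subtypeVal.isClosedMap _ hC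
    have hle : A ≤ C.map A.subtype := by
      refine StarSubalgebra.topologicalClosure_minimal (StarAlgebra.adjoin_le ?_) hc
      rintro _ (⟨b, rfl⟩ | ⟨f, rfl⟩)
      · exact ⟨j b, c1 b, rfl⟩
      · by_cases hf : f ∈ I
        · exact ⟨_, c2 f hf, rfl⟩
        · rw [w3 f hf]; exact one_mem _
    obtain ⟨a', ha', h⟩ := hle a.2
    have : a' = a := Subtype.ext h
    exact this ▸ ha'

end Vale.Agent.P070
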