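import Vale.Agent.P070.PartM1
import Vale.Agent.P070.PartM2
import Vale.Agent.P070.PartD
import Vale.Agent.P070.PartE1
import Vale.Agent.P070.PartE2
import Vale.Agent.P070.PartT
import Vale.Agent.P070.PartW
import Vale.Agent.P070.PartC1
import Vale.Agent.P070.PartC2
import Vale.Agent.P070.PartQ
import Vale.Agent.P070.PartZ

/-! P070: assembly. -/

namespace Vale.Agent.P070

open scoped InnerProductSpace ComplexOrder ComplexConjugate
open Vale.Agent.P104 Filter Topology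

universe u v

/-- An infinite dimensional algebra whose unital irreducible representations are equivalent. -/
theorem main : ∃ (A : Type) (_ : CStarAlgebra A), ¬ FiniteDimensional ℂ A ∧
    ∀ (H : Type u) (K : Type v) [NormedAddCommGroup H] [InnerProductSpace ℂ H] [CompleteSpace H]
      [NormedAddCommGroup K] [InnerProductSpace ℂ K] [CompleteSpace K] [Nontrivial H]
      [Nontrivial K] (π : A →⋆ₐ[ℂ] (H →L[ℂ] H)) (σ : A →⋆ₐ[ℂ] (K →L[ℂ] K)), Irr π → Irr σ →
      ∃ U : H ≃ₗᵢ[ℂ] K, ∀ a x, U (π a x) = σ a (U x) := by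
  obtain ⟨H0, _, _, _, S, t, ht⟩ := exists_good
  obtain ⟨h1, h2⟩ := cl_of_good ht
  obtain ⟨B, _, ι, D, hi, hc, hD, hB⟩ := skolem h1
  by_cases hex : ∃ e, Exc D e
  · obtain ⟨e, he⟩ := hex
    obtain ⟨A, _, j, I, w, hj, hA⟩ := data ι hi he fun f hf =>
      link h1.faith h2 ι hB he.toDec hf.toDec (tau hB he) (tau hB hf)
    refine ⟨A, inferInstance, fun hfin => inf_dim hB
      (FiniteDimensional.of_injective (j : B →ₐ[ℂ] A).toLinearMap hj), ?_⟩
    intro H K _ _ _ _ _ _ _ _ π σ hπ hσ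
    obtain ⟨ξ, a1, a2⟩ := claim2 hA π hπ fun h =>
      exc hB hc hD (π.comp j) fun _ _ h0 _ hδ => dens _ h h0 hδ
    obtain ⟨η, b1, b2⟩ := claim2 hA σ hσ fun h =>
      exc hB hc hD (σ.comp j) fun _ _ h0 _ hδ => dens _ h h0 hδ
    exact equiv (p := fun n => j (e n))
      (fun n => by rw [← map_star, (he.proj n).isSelfAdjoint.star_eq]) (claim1 hA) π hπ σ hσ
      a1 a2 b1 b2
  · refine ⟨B, inferInstance, inf_dim hB, ?_⟩
    intro H K _ _ _ _ _ _ _ _ π σ hπ _
    obtain ⟨f, -, hf, -⟩ := exc hB hc hD π fun _ _ h0 _ hδ => dens _ hπ h0 hδ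
    exact absurd ⟨f, hf⟩ hex

end Vale.Agent.P070
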