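import Vale.Agent.P070.Defs
import Vale.Agent.P085.PartA1
import Vale.Agent.P086.Basic

/-! Part M1 of P070: a concrete finite factor without abelian projections. -/

namespace Vale.Agent.P070

open scoped InnerProductSpace ComplexOrder ComplexConjugate
open Vale.Agent.P104 Vale.Agent.P086 Filter Topology

namespace M1

variable {G : Type*} [Group G]

lemma tr_mul (x y : L2 G →L[ℂ] L2 G) : tr (x * y) = ⟪star x (dl 1), y (dl 1)⟫_ℂ := by
  rw [tr, ContinuousLinearMap.mul_apply, ContinuousLinearMap.star_eq_adjoint,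
    ContinuousLinearMap.adjoint_inner_left]

lemma tr_mul_tsum {x : L2 G →L[ℂ] L2 G} (hx : x ∈ L G) (y : L2 G →L[ℂ] L2 G) :
    tr (x * y) = ∑' g, y (dl 1) g * x (dl 1) g⁻¹ := by
  rw [tr_mul, lp.inner_eq_tsum]
  refine tsum_congr fun g => ?_
  rw [star_apply_dl hx]; simp

lemma tr_mul_comm {x y : L2 G →L[ℂ] L2 G} (hx : x ∈ L G) (hy : y ∈ L G) :
    tr (x * y) = tr (y * x) := by
  rw [tr_mul_tsum hx, tr_mul_tsum hy, ← (Equiv.inv G).tsum_eq]
  refine tsum_congr fun g => ?_
  simp [mul_comm]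

lemma tr_star_mul (x : L2 G →L[ℂ] L2 G) : tr (star x * x) = ((‖x (dl 1)‖ ^ 2 : ℝ) : ℂ) := by
  rw [tr_mul, star_star, inner_self_eq_norm_sq_to_K]; simp

/-- The canonical trace of `L G`. -/
noncomputable def T (G : Type*) [Group G] : Tr (L G) where
  τ :=
    { toFun := fun x => tr (x : L2 G →L[ℂ] L2 G)
      map_add' := fun x y => by simp [tr, inner_add_right]
      map_smul' := fun c x => by simp [tr, inner_smul_right] }
  comm x y := tr_mul_comm x.2 y.2
  pos x := by
    show 0 ≤ tr (star (x : L2 G →L[ℂ] L2 G) * (x : L2 G →L[ℂ] L2 G))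
    rw [tr_star_mul]; exact Complex.zero_le_real.2 (by positivity)

lemma ext_one {x y : L2 G →L[ℂ] L2 G} (hx : x ∈ L G) (hy : y ∈ L G) (h : x (dl 1) = y (dl 1)) :
    x = y := ext_dl fun a => by rw [apply_dl hx, apply_dl hy, h]

lemma faith (x : L G) (h : (T G).N x = 0) : x = 0 := by
  have h1 : (tr (star (x : L2 G →L[ℂ] L2 G) * (x : L2 G →L[ℂ] L2 G))).re = 0 := h
  rw [tr_star_mul, Complex.ofReal_re, sq_eq_zero_iff, norm_eq_zero] at h1
  exact Subtype.ext (ext_one x.2 (zero_mem _) (by simpa using h1))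

lemma inf [Infinite G] : ¬ FiniteDimensional ℂ (L G) := by
  intro hfin
  let E : L G →ₗ[ℂ] L2 G :=
    { toFun := fun x => (x : L2 G →L[ℂ] L2 G) (dl 1)
      map_add' := fun _ _ => rfl
      map_smul' := fun _ _ => rfl }
  have hl : LinearIndependent ℂ (fun g : G => (⟨lam g, lam_mem g⟩ : L G)) := by
    refine LinearIndependent.of_comp E ?_
    have : E ∘ (fun g : G => (⟨lam g, lam_mem g⟩ : L G)) = dl :=
      funext fun g => (lam_dl g 1).trans (by rw [mul_one])
    rw [this]
    exact orthonormal_dl.linearIndependent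
  haveI : Finite G := hl.finite
  exact not_finite G

lemma conj_inv {c : L2 G →L[ℂ] L2 G} (hc : c ∈ L G) (g h : G) (e : c * lam g = lam g * c) :
    c (dl 1) (g * h * g⁻¹) = c (dl 1) h := by
  have h1 := congrArg (fun T => T (dl 1) (g * h)) e
  simp only [ContinuousLinearMap.mul_apply, lam_dl, mul_one] at h1
  rw [apply_dl hc] at h1
  simpa [rho, lam] using h1

lemma vanish (ξ : L2 (Equiv.Perm ℕ)) (hξ : ∀ g h, ξ (g * h * g⁻¹) = ξ h) {h : Equiv.Perm ℕ}
    (h1 : h ≠ 1) : ξ h = 0 := by
  obtain ⟨x, hx⟩ : ∃ x, h x ≠ x := by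
    by_contra hh
    exact h1 (Equiv.ext fun x => by simpa using not_exists.1 hh x)
  let φ : ℕ → Equiv.Perm ℕ := fun n =>
    Equiv.swap (h x) (n + x + h x + 1) * h * (Equiv.swap (h x) (n + x + h x + 1))⁻¹
  have hφ : ∀ n, φ n x = n + x + h x + 1 := fun n => by
    simp only [φ, Equiv.swap_inv, Equiv.Perm.mul_apply]
    rw [Equiv.swap_apply_of_ne_of_ne hx.symm (by omega), Equiv.swap_apply_left]
  have hi : Function.Injective φ := fun m n e => by
    have := hφ m
    rw [e, hφ] at this; omega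
  have hs := (((lp.memℓp ξ).summable (by norm_num)).tendsto_cofinite_zero).comp
    hi.tendsto_cofinite
  have : (fun g => ‖ξ g‖ ^ (2 : ENNReal).toReal) ∘ φ = fun _ => ‖ξ h‖ ^ (2 : ENNReal).toReal :=
    funext fun n => by simp only [Function.comp, φ, hξ]
  rw [this] at hs
  have h0 := tendsto_nhds_unique tendsto_const_nhds hs
  simpa using h0

end M1

open M1 in
theorem exists_good : ∃ (H : Type) (_ : NormedAddCommGroup H) (_ : InnerProductSpace ℂ H)
    (_ : CompleteSpace H) (S : Set (H →L[ℂ] H)) (t : Tr (vN S)), P085.Good t := by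
  let G := Equiv.Perm ℕ
  let S : Set (L2 G →L[ℂ] L2 G) := StarSubalgebra.centralizer ℂ (Set.range (lam (G := G)))
  have h1 : (T G).τ 1 = 1 := by
    show tr (1 : L2 G →L[ℂ] L2 G) = 1
    rw [tr, inner_dl]; simp [dl_apply]
  have hfac : ∀ c, IsCentral S c → c = 0 ∨ c = 1 := by
    rintro c ⟨hc, hp, hz⟩
    have hv := fun h => vanish (c (dl 1))
      (fun g h => conj_inv hc g h (hz _ (lam_mem g))) (h := h)
    have e : c = c (dl 1) 1 • (1 : L2 G →L[ℂ] L2 G) := by
      refine ext_one hc (SMulMemClass.smul_mem _ (one_mem (L G))) ?_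
      ext h
      by_cases hh : h = 1
      · subst hh; simp [dl_apply]
      · rw [hv h hh]; simp [dl_apply, hh]
    set a := c (dl 1) 1 with ha
    have e2 : a * a = a := by
      have := congrArg (fun T => T (dl 1) 1) hp.isIdempotentElem.eq
      simp only at this
      rw [← ha, e] at this
      simpa [dl_apply] using this
    rcases mul_eq_zero.1 (show a * (a - 1) = 0 by rw [mul_sub, e2]; simp) with h | h
    · left; rw [e, h, zero_smul]
    · right; rw [e, sub_eq_zero.1 h, one_smul]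
  exact ⟨L2 G, inferInstance, inferInstance, inferInstance, S, T G, h1, faith,
    ⟨1, fun _ => dl 1, fun _ => dl 1, fun x => by rw [Fin.sum_univ_one]; rfl⟩, hfac,
    P085.na_of (S := S) (T G) h1 faith hfac inf⟩

end Vale.Agent.P070
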