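import Vale.Agent.P070.Defs
import Vale.Agent.P085.PartN
import Vale.Agent.P085.PartA1
import Vale.Agent.P086.Basic
import Vale.Agent.P104.PartB

/-! Plan for P070.  Each part goes to `Vale/Agent/P070/Part<X>.lean`, namespace
`Vale.Agent.P070`, statements verbatim, importing `Defs` and only what it needs.
p ≤ q for projections means q * p = p (then also p * q = p by star). -/

namespace Vale.Agent.P070.Plan

open scoped InnerProductSpace ComplexOrder ComplexConjugate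
open Vale.Agent.P104 Filter Topology

variable {A B : Type*} [CStarAlgebra A] [CStarAlgebra B]
variable {H K : Type*} [NormedAddCommGroup H] [InnerProductSpace ℂ H] [CompleteSpace H]
  [NormedAddCommGroup K] [InnerProductSpace ℂ K] [CompleteSpace K]

/-- PART M1.  H = L2 G, G = Equiv.Perm ℕ, S = commutant of range lam (so vN S = P086.L G by rfl),
τ x = P086.tr x.  comm: x (dl 1) = ∑ coefficients; tr (x y) = ⟪star x dl 1, y dl 1⟫ =
∑ g, x(g⁻¹) y(g) by star_apply_dl, symmetric under g ↦ g⁻¹.  faith: N x = ‖x dl 1‖², apply_dl,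
ext_dl.  fac: c central, ξ = c dl 1 has ξ (g h g⁻¹) = ξ h (lam g * c * lam g⁻¹ = c and apply_dl);
h ≠ 1, h x = y ≠ x: conjugates by swap y z (z ≠ x, y) send x to z so are distinct, ξ square
summable gives ξ h = 0; so c = a • 1, a * a = a.  na: P085.na_of, lam g linearly independent
(apply to dl 1, orthonormal_dl), G infinite. -/
theorem exists_good : ∃ (H : Type) (_ : NormedAddCommGroup H) (_ : InnerProductSpace ℂ H)
    (_ : CompleteSpace H) (S : Set (H →L[ℂ] H)) (t : Tr (vN S)), P085.Good t := sorry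

/-- PART M2.  cmp: P085.A1.cmp; in the case u * star u = q the projection p - star u * u has
trace ≤ 0 so vanishes (faith).  half: exists_halving (NoAbel S p from NoAbel S 1).
sp: y = g (l₁* l₁ + l₂* l₂) g, r = exists_spectral y (1/(n+1)), r in vN S and commutes with g, y;
g2 = g (1 - r); g2 y g2 ≤ λ g2 gives the norms (‖l g2‖² = ‖g2 l* l g2‖); y - λ g r =
g (r y r - λ r) g + (1-r) y (1-r) ≥ 0, C.sq_of_nonneg.  Cpl: P085.unitary_complete. -/
theorem cl_of_good {S : Set (H →L[ℂ] H)} {t : Tr (vN S)} (h : P085.Good t) :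
    Cl t Set.univ ∧ Cpl t := sorry

/-- PART D.  Skolem closure: choose functions for v, g2, c (dummy value 0 off the hypotheses),
countably many ternary functions M → M → M → M (also 1, sub, mul, star, q • 1 for q in a countable
dense subset of ℂ); D0 = union of the iterates, countable and closed.  B = closure D0 as a
StarSubalgebra (closure of a subring, scalars by density), D = preimage of D0. -/
theorem skolem {M : Type} [CStarAlgebra M] {t : Tr M} (h : Cl t Set.univ) :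
    ∃ (B : Type) (_ : CStarAlgebra B) (ι : B →⋆ₐ[ℂ] M) (D : Set B), Function.Injective ι ∧
      D.Countable ∧ Dense D ∧ Cl (t.comap ι) D := sorry

/-- PART E1.  Schur: T self-adjoint commuting with range π, l = ⟪x, T x⟫ for a unit x, r from
exists_spectral commutes with π so its range is ⊥ or ⊤, so T - l ≥ 0 or ≤ 0 with ⟪x,(T-l)x⟫ = 0, so
(T - l) x = 0 and ker (T - l) is a nonzero closed invariant subspace: T = l.  So the commutant is
scalar and every operator is in vN (vN (range π)).  Real Hilbert space WithLp 2 (H × H)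
(InnerProductSpace.complexToReal), W = real subspace of pairs (π (star h) ξ, π h η).  If (α, β) ⊥ W
then ⟪ξ, π h α⟫ + ⟪β, π h η⟫ = 0 for all h (use h and I • h), by B.bicomm the same with π h replaced
by the rank one T = ⟪η, ·⟫ η, so ⟪β, η⟫ = 0.  Hence (0, η) ∈ Wᗮᗮ = closure W. -/
theorem dens (π : A →⋆ₐ[ℂ] (H →L[ℂ] H)) (hπ : Irr π) {ξ η : H} (h : ⟪ξ, η⟫_ℂ = 0) {δ : ℝ}
    (hδ : 0 < δ) : ∃ a : A, ‖π (star a) ξ‖ ≤ δ ∧ ‖π a η - η‖ ≤ δ := sorry

/-- PART E2 (takes `dens` as the hypothesis `hd`).  Step: π g ξ = ξ ≠ 0, b, ε given;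
c = ⟪ξ, π b ξ⟫ / ‖ξ‖², b2 = b - c, η = π b2 ξ ⊥ ξ, a from hd, l₁ ≈ (1 - a) b2, l₂ ≈ star b2 * star a
in D, sp gives g2 with λ ‖ξ - π g2 ξ‖² ≤ ‖π l₁ ξ‖² + ‖π l₂ ξ‖² and
g2 b2 g2 = g2 (1-a) b2 g2 + star (star b2 star a g2) g2 small.  Iterate with b = d (unpair n).1,
ξ (n+1) = π (g (n+1)) (ξ n) Cauchy. -/
theorem exc {t : Tr B} {D : Set B} (h : Cl t D) (hc : D.Countable) (hD : Dense D) [Nontrivial H]
    (π : B →⋆ₐ[ℂ] (H →L[ℂ] H)) (hd : ∀ ξ η : H, ⟪ξ, η⟫_ℂ = 0 → ∀ δ : ℝ, 0 < δ →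
      ∃ a : B, ‖π (star a) ξ‖ ≤ δ ∧ ‖π a η - η‖ ≤ δ) :
    ∃ (f : ℕ → B) (ξ : H), Exc D f ∧ ξ ≠ 0 ∧ ∀ k, π (f k) ξ = ξ := sorry

/-- PART T.  v halves f k, X = v + v*, Z = v* v - v v* (X² = Z² = f k, XZ = -ZX, self-adjoint).
For j ≥ k large f j X f j ≈ c₁ f j, f j Z f j ≈ c₂ f j with real c (average with the star);
σ = a X + b Z, a² + b² = 1, a c₁ + b c₂ = 0, σ² = f k, ‖f j σ f j‖ ≤ 2ε.
0 ≤ N (f k - f j - σ f j σ) = τ f k - 2 τ f j + 2 N (f j σ f j), so 2 τ f j ≤ τ f k + 8 ε²;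
τ f k decreases, its limit L has 2 L ≤ L. -/
theorem tau {t : Tr B} {D : Set B} (h : Cl t D) {f : ℕ → B} (hf : Exc D f) :
    Tendsto (fun k => (t.τ (f k)).re) atTop (𝓝 0) := sorry

/-- PART T.  p 0 = 1, p (k+1) = v* v for v halving p k; the q k = v v* are nonzero (trace)
orthogonal projections, so linearly independent. -/
theorem inf_dim {t : Tr B} {D : Set B} (h : Cl t D) : ¬ FiniteDimensional ℂ B := sorry

/-- PART W.  In B: equal trace gives v ∈ D with v* v = p, v v* = q (cmp, faith).  Between: p ≤ q,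
τ p ≤ s ≤ τ q with s = τ r, r ∈ D: compare p with r (v* v = p, v v* ≤ r), then r - v v* with q - p.
State (p, q, U): p, q ∈ D projections, U unitary of B, U p = q U, e n ≤ p, f m ≤ q for some n, m.
Step for index k: n1 ≥ n, k; m1 ≥ m, k with τ f m1 ≤ τ e n1 (τ e n1 > 0); q2 = f m1; n2 ≥ n1 with
τ e n2 ≤ τ f m1; e n2 ≤ p2 ≤ e n1 with τ p2 = τ q2; U2 = U (1-p) + v + v2, v : p - p2 ~ q - q2,
v2 : p2 ~ q2.  Start (1,1,1).  U (k+1) (1 - p k) = U k (1 - p k); N (U m - U n) ≤ 4 τ p k;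
w = limit of ι U k by Cpl, w (1 - p k) = U k (1 - p k) (N (x p) ≤ N x, faith), also
star w (1 - q k) = star (U k) (1 - q k), so w p k = q k w. -/
theorem link {t : Tr A} (hf : ∀ x, t.N x = 0 → x = 0) (hc : Cpl t) (ι : B →⋆ₐ[ℂ] A) {D : Set B}
    (h : Cl (t.comap ι) D) {e f : ℕ → B} (he : Dec D e) (hf' : Dec D f)
    (he0 : Tendsto (fun k => (t.τ (ι (e k))).re) atTop (𝓝 0))
    (hf0 : Tendsto (fun k => (t.τ (ι (f k))).re) atTop (𝓝 0)) : ∃ w, Link ι e f w := sorry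

/-- PART C1.  Y = span of the ι b * w f (f ∈ I), V = {z | ∀ ε, ∃ y ∈ Y, ∃ n, ‖(z - y) e n‖ ≤ ε}
(closed submodule; the norm decreases in n).  w g * (b w f) ∈ V: w g = w g (1 - e k) + w g e k,
first part in B; w f e n = f k w f e n (fwd) and e k b f k is small (f ≠ e) or ≈ c e k (f = e,
w e = 1, gives c w g).  star (w g) * (b w f) likewise with g k: small if f ≠ g, ≈ c = c w e if
f = g.  C = {a | a V ⊆ V ∧ star a V ⊆ V} is a closed star subalgebra, so by gen all a = a * w e ∈ V.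
Finally e n (b w f) e n ≈ scalar e n.  ‖ι b‖ ≤ ‖b‖: NonUnitalStarAlgHom.norm_apply_le. -/
theorem claim1 {ι : B →⋆ₐ[ℂ] A} {D : Set B} {I : Set (ℕ → B)} {e : ℕ → B} {w : (ℕ → B) → A}
    (h : Data ι D I e w) (a : A) (ε : ℝ) (hε : 0 < ε) :
    ∃ (c : ℂ) (n : ℕ), ‖ι (e n) * a * ι (e n) - c • ι (e n)‖ ≤ ε := sorry

/-- PART C2.  Suppose not.  A vector ζ fixed by all π (f m), f ∈ I, gives π (star (w f)) ζ fixed by
all π (e n) (bwd), so no f ∈ I fixes a nonzero vector, so π (f m) x → 0 for all x (decreasing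
projections: Cauchy, limit fixed).  A closed K invariant under π ι B is invariant under
π (w f) = lim π (w f (1 - e n)) and π (star (w f)), so under A (gen): π ∘ ι is irreducible.
hx gives (f2, ξ); f2 ∉ I; max gives g ∈ I, b, c > 0 with c < ‖g k b f2 m‖ for all k, m (monotone).
Excising x = star b * g k * b by f2 gives c ‖ξ‖ ≤ ‖π (g k) (π b ξ)‖ → 0. -/
theorem claim2 {ι : B →⋆ₐ[ℂ] A} {D : Set B} {I : Set (ℕ → B)} {e : ℕ → B} {w : (ℕ → B) → A}
    (h : Data ι D I e w) (π : A →⋆ₐ[ℂ] (H →L[ℂ] H)) (hπ : Irr π)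
    (hx : Irr (π.comp ι) → ∃ (f : ℕ → B) (ξ : H), Exc D f ∧ ξ ≠ 0 ∧ ∀ k, π (ι (f k)) ξ = ξ) :
    ∃ ξ : H, ξ ≠ 0 ∧ ∀ n, π (ι (e n)) ξ = ξ := sorry

/-- PART Q.  Normalise ξ, η; ⟪ξ, π a ξ⟫ = ⟪η, σ a η⟫ (both are within ε of c), so
‖π a ξ‖ = ‖σ a η‖; both orbits are dense (closure of the range is a nonzero closed invariant
submodule); LinearEquiv.extendOfIsometry or a direct extension gives U with U (π a ξ) = σ a η. -/
theorem equiv {p : ℕ → A} (hp : ∀ n, star (p n) = p n)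
    (h : ∀ (a : A) (ε : ℝ), 0 < ε → ∃ (c : ℂ) (n : ℕ), ‖p n * a * p n - c • p n‖ ≤ ε)
    (π : A →⋆ₐ[ℂ] (H →L[ℂ] H)) (hπ : Irr π) (σ : A →⋆ₐ[ℂ] (K →L[ℂ] K)) (hσ : Irr σ)
    {ξ : H} (hξ : ξ ≠ 0) (h1 : ∀ n, π (p n) ξ = ξ) {η : K} (hη : η ≠ 0) (h2 : ∀ n, σ (p n) η = η) :
    ∃ U : H ≃ₗᵢ[ℂ] K, ∀ a x, U (π a x) = σ a (U x) := sorry

/-- PART Q.  ker (1 - π 1) is closed invariant; if ⊥ then π 1 = 0 so π = 0. -/
theorem unital (π : A →⋆ₙₐ[ℂ] (H →L[ℂ] H)) (h0 : π ≠ 0) (hπ : Irr π) :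
    Nontrivial H ∧ ∃ ρ : A →⋆ₐ[ℂ] (H →L[ℂ] H), ∀ a, ρ a = π a := sorry

/-- PART Q.  Φ 1 * T = T for rank one T so Φ 1 = 1 is compact, H is finite dimensional. -/
theorem not_compacts (hA : ¬ FiniteDimensional ℂ A) (Φ : A →⋆ₙₐ[ℂ] (H →L[ℂ] H))
    (hi : Function.Injective Φ) : Set.range Φ ≠ {T : H →L[ℂ] H | IsCompactOperator T} := sorry

/-- PART Z (helper8): Zorn, assembly and the hand-in. -/
theorem data {M B : Type} [CStarAlgebra M] [CStarAlgebra B] (ι : B →⋆ₐ[ℂ] M)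
    (hi : Function.Injective ι) {D : Set B} {e : ℕ → B} (he : Exc D e)
    (hl : ∀ f, Exc D f → ∃ w, Link ι e f w) :
    ∃ (A : Type) (_ : CStarAlgebra A) (j : B →⋆ₐ[ℂ] A) (I : Set (ℕ → B)) (w : (ℕ → B) → A),
      Function.Injective j ∧ Data j D I e w := sorry

end Vale.Agent.P070.Plan
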